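import Crest.Agent.S0316Lib.Lift

set_option autoImplicit false

namespace Crest.Agent.S0316Lib

open Crest.GeometryTopology.Quadric Complex
open scoped ContDiff Topology

noncomputable def nu : ℝ := 1 / Real.sqrt 32786

lemma nu_sq : nu ^ 2 = 1 / 32786 := by
  unfold nu
  rw [div_pow, one_pow, Real.sq_sqrt (by norm_num)]

lemma nu_ne : nu ≠ 0 := by
  intro h
  have := nu_sq
  rw [h] at this
  norm_num at this

noncomputable def zd : V5 :=
  ![⟨30 * nu, -78 * nu⟩, ⟨-30 * nu, 78 * nu⟩, ⟨-72 * nu, -65 * nu⟩, ⟨97 * nu, 0⟩, 0]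

noncomputable def wd : V5 := ![⟨5 * nu, -13 * nu⟩, ⟨5 * nu, -13 * nu⟩, 0, 0, 0]

noncomputable def cd : ℂ := ⟨-72 / 97, 65 / 97⟩

lemma zd_re_0 : (zd 0).re = 30 * nu := rfl
lemma zd_im_0 : (zd 0).im = -78 * nu := rfl
lemma zd_re_1 : (zd 1).re = -30 * nu := rfl
lemma zd_im_1 : (zd 1).im = 78 * nu := rfl
lemma zd_re_2 : (zd 2).re = -72 * nu := rfl
lemma zd_im_2 : (zd 2).im = -65 * nu := rfl
lemma zd_re_3 : (zd 3).re = 97 * nu := rfl
lemma zd_im_3 : (zd 3).im = 0 := rfl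
lemma zd_re_4 : (zd 4).re = 0 := rfl
lemma zd_im_4 : (zd 4).im = 0 := rfl
lemma wd_re_0 : (wd 0).re = 5 * nu := rfl
lemma wd_im_0 : (wd 0).im = -13 * nu := rfl
lemma wd_re_1 : (wd 1).re = 5 * nu := rfl
lemma wd_im_1 : (wd 1).im = -13 * nu := rfl
lemma wd_re_2 : (wd 2).re = 0 := rfl
lemma wd_im_2 : (wd 2).im = 0 := rfl
lemma wd_re_3 : (wd 3).re = 0 := rfl
lemma wd_im_3 : (wd 3).im = 0 := rfl
lemma wd_re_4 : (wd 4).re = 0 := rfl
lemma wd_im_4 : (wd 4).im = 0 := rfl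

lemma zd_mem : zd ∈ unitCone := by
  apply mem_cone_of_real
  · simp only [zd_re_0, zd_im_0, zd_re_1, zd_im_1, zd_re_2, zd_im_2, zd_re_3, zd_im_3, zd_re_4,
      zd_im_4]
    linear_combination 32786 * nu_sq
  · simp only [zd_re_0, zd_im_0, zd_re_1, zd_im_1, zd_re_2, zd_im_2, zd_re_3, zd_im_3, zd_re_4,
      zd_im_4]
    ring
  · simp only [zd_re_0, zd_im_0, zd_re_1, zd_im_1, zd_re_2, zd_im_2, zd_re_3, zd_im_3, zd_re_4,
      zd_im_4]
    ring

lemma J0_zd : J0 zd = 3 / 13 := by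
  show (zd 1).re * (zd 2).im - (zd 1).im * (zd 2).re = 3 / 13
  simp only [zd_re_1, zd_im_1, zd_re_2, zd_im_2]
  linear_combination 7566 * nu_sq

lemma J1_zd : J1 zd = 3 / 13 := by
  show (zd 2).re * (zd 0).im - (zd 2).im * (zd 0).re = 3 / 13
  simp only [zd_re_0, zd_im_0, zd_re_2, zd_im_2]
  linear_combination 7566 * nu_sq

lemma J2_zd : J2 zd = 0 := by
  show (zd 0).re * (zd 1).im - (zd 0).im * (zd 1).re = 0
  simp only [zd_re_0, zd_im_0, zd_re_1, zd_im_1]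
  ring

lemma uu_zd : uu zd = 18 / 169 := by
  unfold uu
  rw [J0_zd, J1_zd, J2_zd]
  norm_num

lemma f1_zd : f1 (65 / 36) zd = 47 / 97 := by
  unfold f1 dd
  rw [uu_zd]
  norm_num

lemma f2_zd : f2 (65 / 36) zd = 260 / 97 := by
  unfold f2 dd
  rw [uu_zd]
  norm_num

lemma FF_zd : FF zd = cd • zd := by
  funext i
  fin_cases i
  · apply Complex.ext
    · show (Vone (rot (65 / 36) zd) 0).re = ((cd • zd) 0).re
      rw [Vone_re_0]
      simp only [rot_re_0, rot_re_1, rot_re_2, rot_3, f1_zd, f2_zd, J0_zd, J1_zd, J2_zd, zd_re_0,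
        zd_re_1, zd_re_2, zd_re_3]
      simp [cd, zd_re_0, zd_im_0]
      ring
    · show (Vone (rot (65 / 36) zd) 0).im = ((cd • zd) 0).im
      rw [Vone_im_0]
      simp only [rot_im_0, rot_im_1, rot_im_2, rot_3, f1_zd, f2_zd, J0_zd, J1_zd, J2_zd, zd_im_0,
        zd_im_1, zd_im_2, zd_im_3]
      simp [cd, zd_re_0, zd_im_0]
      ring
  · apply Complex.ext
    · show (Vone (rot (65 / 36) zd) 1).re = ((cd • zd) 1).re
      rw [Vone_re_1]
      simp only [rot_re_0, rot_re_1, rot_re_2, rot_3, f1_zd, f2_zd, J0_zd, J1_zd, J2_zd, zd_re_0,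
        zd_re_1, zd_re_2, zd_re_3]
      simp [cd, zd_re_1, zd_im_1]
      ring
    · show (Vone (rot (65 / 36) zd) 1).im = ((cd • zd) 1).im
      rw [Vone_im_1]
      simp only [rot_im_0, rot_im_1, rot_im_2, rot_3, f1_zd, f2_zd, J0_zd, J1_zd, J2_zd, zd_im_0,
        zd_im_1, zd_im_2, zd_im_3]
      simp [cd, zd_re_1, zd_im_1]
      ring
  · apply Complex.ext
    · show (Vone (rot (65 / 36) zd) 2).re = ((cd • zd) 2).re
      rw [Vone_re_2]
      simp only [rot_re_0, rot_re_1, rot_re_2, rot_3, f1_zd, f2_zd, J0_zd, J1_zd, J2_zd, zd_re_0,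
        zd_re_1, zd_re_2, zd_re_3]
      simp [cd, zd_re_2, zd_im_2]
      ring
    · show (Vone (rot (65 / 36) zd) 2).im = ((cd • zd) 2).im
      rw [Vone_im_2]
      simp only [rot_im_0, rot_im_1, rot_im_2, rot_3, f1_zd, f2_zd, J0_zd, J1_zd, J2_zd, zd_im_0,
        zd_im_1, zd_im_2, zd_im_3]
      simp [cd, zd_re_2, zd_im_2]
      ring
  · apply Complex.ext
    · show (Vone (rot (65 / 36) zd) 3).re = ((cd • zd) 3).re
      rw [Vone_re_3]
      simp only [rot_re_0, rot_re_1, rot_re_2, rot_3, f1_zd, f2_zd, J0_zd, J1_zd, J2_zd, zd_re_0,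
        zd_re_1, zd_re_2, zd_re_3]
      simp [cd, zd_re_3, zd_im_3]
      ring
    · show (Vone (rot (65 / 36) zd) 3).im = ((cd • zd) 3).im
      rw [Vone_im_3]
      simp only [rot_im_0, rot_im_1, rot_im_2, rot_3, f1_zd, f2_zd, J0_zd, J1_zd, J2_zd, zd_im_0,
        zd_im_1, zd_im_2, zd_im_3]
      simp [cd, zd_re_3, zd_im_3]
      ring
  · show zd 4 = cd * zd 4
    have : zd 4 = 0 := rfl
    rw [this, mul_zero]

lemma wd_tangent : wd ∈ coneTangent zd := by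
  constructor
  · simp only [herm, Fin.sum_univ_five, add_re, mul_re, conj_re, conj_im, zd_re_0, zd_im_0,
      zd_re_1, zd_im_1, zd_re_2, zd_im_2, zd_re_3, zd_im_3, zd_re_4, zd_im_4, wd_re_0, wd_im_0,
      wd_re_1, wd_im_1, wd_re_2, wd_im_2, wd_re_3, wd_im_3, wd_re_4, wd_im_4]
    ring
  · apply Complex.ext
    · simp only [Fin.sum_univ_five, add_re, mul_re, zero_re, zd_re_0, zd_im_0,
        zd_re_1, zd_im_1, zd_re_2, zd_im_2, zd_re_3, zd_im_3, zd_re_4, zd_im_4, wd_re_0, wd_im_0,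
        wd_re_1, wd_im_1, wd_re_2, wd_im_2, wd_re_3, wd_im_3, wd_re_4, wd_im_4]
      ring
    · simp only [Fin.sum_univ_five, add_im, mul_im, zero_im, zd_re_0, zd_im_0,
        zd_re_1, zd_im_1, zd_re_2, zd_im_2, zd_re_3, zd_im_3, zd_re_4, zd_im_4, wd_re_0, wd_im_0,
        wd_re_1, wd_im_1, wd_re_2, wd_im_2, wd_re_3, wd_im_3, wd_re_4, wd_im_4]
      ring

lemma wd_not_mul (r : ℝ) : wd ≠ ((r : ℂ) * Complex.I) • zd := by
  intro h
  have h3 := congrArg Complex.im (congrFun h 3)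
  have h0 := congrArg Complex.re (congrFun h 0)
  simp only [Pi.smul_apply, smul_eq_mul, mul_im, mul_re, ofReal_re, ofReal_im, I_re, I_im,
    zd_re_3, zd_im_3, wd_im_3] at h3
  simp only [Pi.smul_apply, smul_eq_mul, mul_im, mul_re, ofReal_re, ofReal_im, I_re, I_im,
    zd_re_0, zd_im_0, wd_re_0] at h0
  have hr : r = 0 := by
    have : r * (97 * nu) = 0 := by linarith
    rcases mul_eq_zero.1 this with h | h
    · exact h
    · exact absurd (by linarith) nu_ne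
  rw [hr] at h0
  apply nu_ne
  linarith

/-! ### The derivative along the line `zd + τ wd` -/

lemma hasDerivAt_line (y w : V5) : HasDerivAt (fun τ : ℝ => y + τ • w) w 0 := by
  have h := ((hasDerivAt_id (0 : ℝ)).smul_const w).const_add y
  refine HasDerivAt.congr_deriv h ?_
  simp

lemma hasDerivAt_line_coord (y w : V5) (j : Fin 5) :
    HasDerivAt (fun τ : ℝ => (y + τ • w) j) (w j) 0 :=
  (hasDerivAt_pi.1 (hasDerivAt_line y w)) j

lemma hasDerivAt_line_pl (y w : V5) (j k : Fin 5) :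
    HasDerivAt (fun τ : ℝ => pl (y + τ • w) j k) (plD y j k w) 0 :=
  (hasFDerivAt_pl y j k).comp_hasDerivAt_of_eq (0 : ℝ) (hasDerivAt_line y w) (by simp)

lemma hasDerivAt_line_uu (y w : V5) :
    HasDerivAt (fun τ : ℝ => uu (y + τ • w)) (uuD y w) 0 :=
  (hasFDerivAt_uu y).comp_hasDerivAt_of_eq (0 : ℝ) (hasDerivAt_line y w) (by simp)

lemma hasDerivAt_line_dd (s : ℝ) (y w : V5) (hu : uuD y w = 0) :
    HasDerivAt (fun τ : ℝ => dd s (y + τ • w)) 0 0 := by
  have h := (hasDerivAt_line_uu y w).const_mul (s ^ 2) |>.const_add 1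
  rw [hu] at h
  simpa [dd] using h

lemma hasDerivAt_line_f1 (s : ℝ) (y w : V5) (hu : uuD y w = 0) :
    HasDerivAt (fun τ : ℝ => f1 s (y + τ • w)) 0 0 := by
  have h1 := (hasDerivAt_line_uu y w).const_mul (s ^ 2) |>.const_sub 1
  rw [hu] at h1
  have h2 := hasDerivAt_line_dd s y w hu
  have hne : dd s (y + (0 : ℝ) • w) ≠ 0 := dd_ne _ _
  have h := h1.div h2 hne
  refine HasDerivAt.congr_deriv h ?_
  simp

lemma hasDerivAt_line_f2 (s : ℝ) (y w : V5) (hu : uuD y w = 0) :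
    HasDerivAt (fun τ : ℝ => f2 s (y + τ • w)) 0 0 := by
  have h2 := hasDerivAt_line_dd s y w hu
  have hne : dd s (y + (0 : ℝ) • w) ≠ 0 := dd_ne _ _
  have h := (hasDerivAt_const (0 : ℝ) (2 * s)).div h2 hne
  refine HasDerivAt.congr_deriv h ?_
  simp

/-- Generic product-rule computation for one coordinate of the rotation. -/
lemma hasDerivAt_rot_coord {f g a b : ℝ → ℝ} {c d e : ℝ → ℂ} {a' b' : ℝ} {c' d' e' : ℂ}
    (hf : HasDerivAt f 0 0) (hg : HasDerivAt g 0 0) (ha : HasDerivAt a a' 0)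
    (hb : HasDerivAt b b' 0) (hc : HasDerivAt c c' 0) (hd : HasDerivAt d d' 0)
    (he : HasDerivAt e e' 0) :
    HasDerivAt (fun τ => ((f τ : ℝ) : ℂ) * c τ + ((g τ : ℝ) : ℂ) * (((a τ : ℝ) : ℂ) * d τ - ((b τ : ℝ) : ℂ) * e τ))
      (((f 0 : ℝ) : ℂ) * c' + ((g 0 : ℝ) : ℂ) *
        ((a' : ℂ) * d 0 + ((a 0 : ℝ) : ℂ) * d' - ((b' : ℂ) * e 0 + ((b 0 : ℝ) : ℂ) * e'))) 0 := by
  have hf' := hf.ofReal_comp
  have hg' := hg.ofReal_comp
  have ha' := ha.ofReal_comp
  have hb' := hb.ofReal_comp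
  have h := (hf'.mul hc).add (hg'.mul ((ha'.mul hd).sub (hb'.mul he)))
  refine HasDerivAt.congr_deriv h ?_
  simp

/-- The derivative of `rot s` along a line on which `uu` is stationary. -/
lemma hasDerivAt_rot_line (s : ℝ) (y w : V5) (hu : uuD y w = 0) :
    HasDerivAt (fun τ : ℝ => rot s (y + τ • w))
      ![(f1 s y : ℂ) * w 0 + (f2 s y : ℂ) *
          ((plD y 2 0 w : ℂ) * y 2 + (J1 y : ℂ) * w 2 - ((plD y 0 1 w : ℂ) * y 1 + (J2 y : ℂ) * w 1)),
        (f1 s y : ℂ) * w 1 + (f2 s y : ℂ) *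
          ((plD y 0 1 w : ℂ) * y 0 + (J2 y : ℂ) * w 0 - ((plD y 1 2 w : ℂ) * y 2 + (J0 y : ℂ) * w 2)),
        (f1 s y : ℂ) * w 2 + (f2 s y : ℂ) *
          ((plD y 1 2 w : ℂ) * y 1 + (J0 y : ℂ) * w 1 - ((plD y 2 0 w : ℂ) * y 0 + (J1 y : ℂ) * w 0)),
        w 3, w 4] 0 := by
  have hf1 := hasDerivAt_line_f1 s y w hu
  have hf2 := hasDerivAt_line_f2 s y w hu
  have c := hasDerivAt_line_coord y w
  have hJ0 := hasDerivAt_line_pl y w 1 2
  have hJ1 := hasDerivAt_line_pl y w 2 0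
  have hJ2 := hasDerivAt_line_pl y w 0 1
  have e0 : y + (0 : ℝ) • w = y := by simp
  rw [hasDerivAt_pi]
  intro i
  fin_cases i
  · have h := hasDerivAt_rot_coord hf1 hf2 hJ1 hJ2 (c 0) (c 2) (c 1)
    simp only [e0] at h
    exact h
  · have h := hasDerivAt_rot_coord hf1 hf2 hJ2 hJ0 (c 1) (c 0) (c 2)
    simp only [e0] at h
    exact h
  · have h := hasDerivAt_rot_coord hf1 hf2 hJ0 hJ1 (c 2) (c 1) (c 0)
    simp only [e0] at h
    exact h
  · exact c 3
  · exact c 4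

lemma hasDerivAt_Vone {g : ℝ → V5} {g' : V5} (hg : HasDerivAt g g' 0) :
    HasDerivAt (fun τ => Vone (g τ)) (Vone g') 0 := by
  have c := hasDerivAt_pi.1 hg
  rw [hasDerivAt_pi]
  intro i
  fin_cases i
  · exact ((((c 0).const_mul (-144)).sub ((c 1).const_mul 25)).add ((c 2).const_mul 60)
      |>.add ((c 3).const_mul 60)).const_mul _
  · exact ((((c 0).const_mul (-25)).sub ((c 1).const_mul 144)).sub ((c 2).const_mul 60)
      |>.sub ((c 3).const_mul 60)).const_mul _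
  · exact ((((c 0).const_mul (-60)).add ((c 1).const_mul 60)).sub ((c 2).const_mul 144)
      |>.add ((c 3).const_mul 25)).const_mul _
  · exact ((((c 0).const_mul (-60)).add ((c 1).const_mul 60)).add ((c 2).const_mul 25)
      |>.sub ((c 3).const_mul 144)).const_mul _
  · exact c 4

lemma plD12 : plD zd 1 2 wd = -1 / 26 := by
  rw [plD_apply]
  simp only [zd_re_1, zd_im_1, zd_re_2, zd_im_2, wd_re_1, wd_im_1, wd_re_2, wd_im_2]
  linear_combination (-1261) * nu_sq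

lemma plD20 : plD zd 2 0 wd = 1 / 26 := by
  rw [plD_apply]
  simp only [zd_re_0, zd_im_0, zd_re_2, zd_im_2, wd_re_0, wd_im_0, wd_re_2, wd_im_2]
  linear_combination (1261) * nu_sq

lemma plD01 : plD zd 0 1 wd = 0 := by
  rw [plD_apply]
  simp only [zd_re_0, zd_im_0, zd_re_1, zd_im_1, wd_re_0, wd_im_0, wd_re_1, wd_im_1]
  ring

lemma uuD_wd : uuD zd wd = 0 := by
  simp only [uuD, ContinuousLinearMap.add_apply, ContinuousLinearMap.smul_apply, smul_eq_mul,
    plD12, plD20, plD01, J0_zd, J1_zd, J2_zd]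
  norm_num

/-- The claimed derivative of the time-one map along `wd`. -/
lemma hasDerivAt_FF_line : HasDerivAt (fun τ : ℝ => FF (zd + τ • wd)) (cd • wd) 0 := by
  have h := hasDerivAt_Vone (hasDerivAt_rot_line (65 / 36) zd wd uuD_wd)
  refine HasDerivAt.congr_deriv h ?_
  rw [plD12, plD20, plD01, f1_zd, f2_zd, J0_zd, J1_zd, J2_zd]
  funext i
  fin_cases i
  · apply Complex.ext
    · simp [Vone, cd, zd, wd]; ring_nf
    · simp [Vone, cd, zd, wd]; ring_nf
  · apply Complex.ext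
    · simp [Vone, cd, zd, wd]; ring_nf
    · simp [Vone, cd, zd, wd]; ring_nf
  · apply Complex.ext
    · simp [Vone, cd, zd, wd]; ring_nf
    · simp [Vone, cd, zd, wd]; ring_nf
  · apply Complex.ext
    · simp [Vone, cd, zd, wd]; ring_nf
    · simp [Vone, cd, zd, wd]; ring_nf
  · simp [Vone, cd, wd]

lemma fun_Psi_one : (fun x : V5 => theLift.Ψ (1, x)) = FF := funext PsiFun_one

lemma contDiff_FF : ContDiff ℝ ∞ FF := by
  rw [← fun_Psi_one]
  exact contDiff_PsiFun.comp (contDiff_const.prodMk contDiff_id)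

lemma fderiv_FF_wd : fderiv ℝ FF zd wd = cd • wd := by
  have hd : DifferentiableAt ℝ FF zd := (contDiff_FF.differentiable (by simp)) zd
  have h := (hd.hasFDerivAt.hasLineDerivAt wd)
  exact HasDerivAt.unique h hasDerivAt_FF_line

theorem degenerate : HasDegenerateFixedPoint theLift := by
  refine ⟨zd, zd_mem, cd, ?_, wd, wd_tangent, wd_not_mul, 0, ?_⟩
  · exact (PsiFun_one zd).trans FF_zd
  · rw [fun_Psi_one, fderiv_FF_wd]
    simp

end Crest.Agent.S0316Lib
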