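import Crest.Agent.S0316Lib.Lift

set_option autoImplicit false

namespace Crest.Agent.S0316Lib

open Crest.GeometryTopology.Quadric Complex

lemma Psi_one (z : V5) : theLift.Ψ (1, z) = FF z := PsiFun_one z

/-- A cone point with prescribed invariants, which is automatically fixed. -/
lemma exists_fixed_pt (a m : ℝ) (hN : a ^ 2 + (169 / 144) * m ^ 2 = 1 / 4) (hm : m ≠ 0)
    (h6 : (5 / 12) * m = (65 / 18) * (((a - m) / 2) * ((a + m) / 2))) :
    ∃ z : V5, z ∈ unitCone ∧ z 4 = 0 ∧ K0 z + J0 z = a ∧ K0 z - J0 z = m ∧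
      J1 z = J0 z ∧ J2 z = 0 ∧ K1 z = - K0 z ∧ K2 z = (5 / 12) * (K0 z - J0 z) ∧
      ∃ c : ℂ, FF z = c • z := by
  have hQ : 0 < ((a + m) / 2) ^ 2 + (-((a + m) / 2)) ^ 2 + ((5 / 12) * m) ^ 2 := by
    have h1 : 0 < m ^ 2 := by positivity
    nlinarith [sq_nonneg ((a + m) / 2)]
  obtain ⟨z, hz, h4, h0, h1, h2, h3, h5, h7⟩ := exists_cone_point ((a - m) / 2) ((a - m) / 2) 0
    ((a + m) / 2) (-((a + m) / 2)) ((5 / 12) * m) (by ring) (by linear_combination hN) hQ
  have e1 : K0 z + J0 z = a := by rw [h3, h0]; ring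
  have e2 : K0 z - J0 z = m := by rw [h3, h0]; ring
  obtain ⟨c, -, hc⟩ := fixed_of_form (j := (a - m) / 2) (k := (a + m) / 2) (n := (5 / 12) * m)
    hz h4 h0 h1 h2 h3 h5 h7 (by ring) h6
  refine ⟨z, hz, h4, e1, e2, by rw [h1, h0], h2, by rw [h5, h3], by rw [h7, e2], c, hc⟩

/-- Fixed lines have the invariants found by the classification. -/
lemma fixed_invariants {z : V5} (hz : z ∈ unitCone) (hfix : FF z ∈ Submodule.span ℂ {z}) :
    z 4 = 0 ∧ J1 z = J0 z ∧ J2 z = 0 ∧ K1 z = -K0 z ∧ K2 z = (5 / 12) * (K0 z - J0 z) ∧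
      ((K0 z + J0 z = 0 ∧ K0 z - J0 z = -6 / 13) ∨
        ((K0 z + J0 z) ^ 2 = 17352 / 97969 ∧ K0 z - J0 z = 78 / 313)) := by
  obtain ⟨c, hc⟩ := Submodule.mem_span_singleton.1 hfix
  have hcz : c • z ∈ unitCone := by rw [hc]; exact FF_mem_cone hz
  have hn : normSq c = 1 := normSq_of_smul_mem hz hcz
  have h4 : z 4 = 0 := by
    by_contra h
    exact no_fixed_off hz h hc.symm
  have := fixed_classify hz h4 hn hc.symm
  exact ⟨h4, this⟩

lemma span_eq_of_invariants {z z' : V5} (hz : z ∈ unitCone) (hz' : z' ∈ unitCone)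
    (h4 : z 4 = 0) (h4' : z' 4 = 0)
    (e0 : J0 z' = J0 z) (e1 : J1 z' = J1 z) (e2 : J2 z' = J2 z)
    (e3 : K0 z' = K0 z) (e4 : K1 z' = K1 z) (e5 : K2 z' = K2 z) :
    Submodule.span ℂ {z'} = Submodule.span ℂ {z} := by
  obtain ⟨c, hc, rfl⟩ := line_recovery hz hz' h4 h4' e0 e1 e2 e3 e4 e5
  exact Submodule.span_singleton_smul_eq (IsUnit.mk0 c hc) z

lemma invariants_of_span_eq {z z' : V5} (hz : z ∈ unitCone) (hz' : z' ∈ unitCone)
    (h : Submodule.span ℂ {z'} = Submodule.span ℂ {z}) :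
    J0 z' = J0 z ∧ K0 z' = K0 z := by
  have hmem : z' ∈ Submodule.span ℂ {z} := by
    rw [← h]; exact Submodule.mem_span_singleton_self z'
  obtain ⟨c, rfl⟩ := Submodule.mem_span_singleton.1 hmem
  have hn : normSq c = 1 := normSq_of_smul_mem hz hz'
  rw [J0_smul, K0_smul, hn, one_mul, one_mul]
  exact ⟨rfl, rfl⟩

theorem ncard_three : (fixedLines theLift).ncard = 3 := by
  have hA2 : Real.sqrt (17352 / 97969) ^ 2 = 17352 / 97969 := Real.sq_sqrt (by norm_num)
  have hApos : 0 < Real.sqrt (17352 / 97969) := Real.sqrt_pos.2 (by norm_num)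
  set A := Real.sqrt (17352 / 97969) with hA
  obtain ⟨z1, hz1, h41, a1, m1, j1, j1', k1, k1', c1, hc1⟩ :=
    exists_fixed_pt 0 (-6 / 13) (by norm_num) (by norm_num) (by norm_num)
  have hprod2 : ((A - 78 / 313) / 2) * ((A + 78 / 313) / 2) = (A ^ 2 - (78 / 313) ^ 2) / 4 := by
    ring
  obtain ⟨z2, hz2, h42, a2, m2, j2, j2', k2, k2', c2, hc2⟩ :=
    exists_fixed_pt A (78 / 313) (by rw [hA2]; norm_num) (by norm_num)
      (by rw [hprod2, hA2]; norm_num)
  have hprod3 : ((-A - 78 / 313) / 2) * ((-A + 78 / 313) / 2) = (A ^ 2 - (78 / 313) ^ 2) / 4 := by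
    ring
  obtain ⟨z3, hz3, h43, a3, m3, j3, j3', k3, k3', c3, hc3⟩ :=
    exists_fixed_pt (-A) (78 / 313) (by rw [neg_sq, hA2]; norm_num) (by norm_num)
      (by rw [hprod3, hA2]; norm_num)
  have ne12 : Submodule.span ℂ {z1} ≠ Submodule.span ℂ {z2} := by
    intro h
    obtain ⟨e0, e1⟩ := invariants_of_span_eq hz2 hz1 h
    rw [e0, e1] at m1
    rw [m1] at m2
    norm_num at m2
  have ne13 : Submodule.span ℂ {z1} ≠ Submodule.span ℂ {z3} := by
    intro h
    obtain ⟨e0, e1⟩ := invariants_of_span_eq hz3 hz1 h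
    rw [e0, e1] at m1
    rw [m1] at m3
    norm_num at m3
  have ne23 : Submodule.span ℂ {z2} ≠ Submodule.span ℂ {z3} := by
    intro h
    obtain ⟨e0, e1⟩ := invariants_of_span_eq hz3 hz2 h
    rw [e0, e1] at a2
    rw [a2] at a3
    linarith
  rw [Set.ncard_eq_three]
  refine ⟨Submodule.span ℂ {z1}, Submodule.span ℂ {z2}, Submodule.span ℂ {z3}, ne12, ne13, ne23, ?_⟩
  ext ℓ
  constructor
  · rintro ⟨z, hz, rfl, hfix⟩
    rw [Psi_one] at hfix
    obtain ⟨h4, hj, hj', hk, hk', hcase⟩ := fixed_invariants hz hfix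
    rcases hcase with ⟨ha, hm⟩ | ⟨ha, hm⟩
    · left
      have e0 : J0 z = J0 z1 := by linarith
      have e3 : K0 z = K0 z1 := by linarith
      refine span_eq_of_invariants hz1 hz h41 h4 e0 ?_ ?_ e3 ?_ ?_
      · rw [hj, j1, e0]
      · rw [hj', j1']
      · rw [hk, k1, e3]
      · rw [hk', k1', e0, e3]
    · right
      have hsq : (K0 z + J0 z - A) * (K0 z + J0 z + A) = 0 := by
        have : (K0 z + J0 z - A) * (K0 z + J0 z + A) = (K0 z + J0 z) ^ 2 - A ^ 2 := by ring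
        rw [this, ha, hA2]; ring
      rcases mul_eq_zero.1 hsq with h | h
      · left
        have e0 : J0 z = J0 z2 := by linarith
        have e3 : K0 z = K0 z2 := by linarith
        refine span_eq_of_invariants hz2 hz h42 h4 e0 ?_ ?_ e3 ?_ ?_
        · rw [hj, j2, e0]
        · rw [hj', j2']
        · rw [hk, k2, e3]
        · rw [hk', k2', e0, e3]
      · right
        have e0 : J0 z = J0 z3 := by linarith
        have e3 : K0 z = K0 z3 := by linarith
        refine span_eq_of_invariants hz3 hz h43 h4 e0 ?_ ?_ e3 ?_ ?_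
        · rw [hj, j3, e0]
        · rw [hj', j3']
        · rw [hk, k3, e3]
        · rw [hk', k3', e0, e3]
  · rintro (rfl | rfl | rfl)
    · refine ⟨z1, hz1, rfl, ?_⟩
      rw [Psi_one, hc1]
      exact Submodule.smul_mem _ _ (Submodule.mem_span_singleton_self z1)
    · refine ⟨z2, hz2, rfl, ?_⟩
      rw [Psi_one, hc2]
      exact Submodule.smul_mem _ _ (Submodule.mem_span_singleton_self z2)
    · refine ⟨z3, hz3, rfl, ?_⟩
      rw [Psi_one, hc3]
      exact Submodule.smul_mem _ _ (Submodule.mem_span_singleton_self z3)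

end Crest.Agent.S0316Lib
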