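import Mathlib
import Crest.Prelude.Def_QuadricHamiltonian

/-!
# S0316 helper: the algebra of the explicit Hamiltonian map on the quadric threefold

Blueprint.  Write a point of the cone as `z = (z0, z1, z2, z3, z4)`.  Plücker coordinates
`pl z j k = Im (conj (z j) * z k)`.  `J = (pl 1 2, pl 2 0, pl 0 1)` is the moment map of the
rotation group `SO(3)` acting on `(z0, z1, z2)`, `K = (pl 3 0, pl 3 1, pl 3 2)`.
The map is `F = V1 ∘ rot s0`, where
* `rot s z` rotates `(z0, z1, z2)` about the axis `J z` by the angle with `tan (θ/2) = s |J z|`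
  (Cayley form), this is a Hamiltonian flow of a function of `|J|²`;
* `V1` is a fixed element of `SO(5)` fixing `e4` and acting as `-1` on a plane, close to the
  reflection `diag(-1,-1,-1,-1,1)`.
Fixed points can only lie on `z4 = 0`, and in terms of `(J, K)` (i.e. of a point of `S² × S²`)
the equation is solved by hand: exactly three solutions.
-/

set_option autoImplicit false

namespace Crest.Agent.S0316Lib

open Crest.GeometryTopology.Quadric Complex

/-- complex 5-space -/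
abbrev V5 := Fin 5 → ℂ

/-- Plücker coordinate `Im (conj (z j) * z k)`. -/
noncomputable def pl (z : V5) (j k : Fin 5) : ℝ := (z j).re * (z k).im - (z j).im * (z k).re

noncomputable def J0 (z : V5) : ℝ := pl z 1 2
noncomputable def J1 (z : V5) : ℝ := pl z 2 0
noncomputable def J2 (z : V5) : ℝ := pl z 0 1
noncomputable def K0 (z : V5) : ℝ := pl z 3 0
noncomputable def K1 (z : V5) : ℝ := pl z 3 1
noncomputable def K2 (z : V5) : ℝ := pl z 3 2

/-- squared norm of the moment map `J` -/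
noncomputable def uu (z : V5) : ℝ := J0 z ^ 2 + J1 z ^ 2 + J2 z ^ 2

lemma uu_nonneg (z : V5) : 0 ≤ uu z := by unfold uu; positivity

noncomputable def dd (s : ℝ) (z : V5) : ℝ := 1 + s ^ 2 * uu z

lemma dd_pos (s : ℝ) (z : V5) : 0 < dd s z := by
  unfold dd; have := uu_nonneg z; positivity

lemma dd_ne (s : ℝ) (z : V5) : dd s z ≠ 0 := (dd_pos s z).ne'

noncomputable def f1 (s : ℝ) (z : V5) : ℝ := (1 - s ^ 2 * uu z) / dd s z
noncomputable def f2 (s : ℝ) (z : V5) : ℝ := 2 * s / dd s z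

lemma f_rel (s : ℝ) (z : V5) : f1 s z ^ 2 + f2 s z ^ 2 * uu z = 1 := by
  have h := dd_ne s z
  unfold f1 f2
  field_simp
  unfold dd
  ring

/-- The rotation step, in Cayley form. -/
noncomputable def rot (s : ℝ) (z : V5) : V5 :=
  ![(f1 s z : ℂ) * z 0 + (f2 s z : ℂ) * ((J1 z : ℂ) * z 2 - (J2 z : ℂ) * z 1),
    (f1 s z : ℂ) * z 1 + (f2 s z : ℂ) * ((J2 z : ℂ) * z 0 - (J0 z : ℂ) * z 2),
    (f1 s z : ℂ) * z 2 + (f2 s z : ℂ) * ((J0 z : ℂ) * z 1 - (J1 z : ℂ) * z 0),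
    z 3, z 4]

@[simp] lemma rot_0 (s : ℝ) (z : V5) :
    rot s z 0 = (f1 s z : ℂ) * z 0 + (f2 s z : ℂ) * ((J1 z : ℂ) * z 2 - (J2 z : ℂ) * z 1) := rfl
@[simp] lemma rot_1 (s : ℝ) (z : V5) :
    rot s z 1 = (f1 s z : ℂ) * z 1 + (f2 s z : ℂ) * ((J2 z : ℂ) * z 0 - (J0 z : ℂ) * z 2) := rfl
@[simp] lemma rot_2 (s : ℝ) (z : V5) :
    rot s z 2 = (f1 s z : ℂ) * z 2 + (f2 s z : ℂ) * ((J0 z : ℂ) * z 1 - (J1 z : ℂ) * z 0) := rfl
@[simp] lemma rot_3 (s : ℝ) (z : V5) : rot s z 3 = z 3 := rfl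
@[simp] lemma rot_4 (s : ℝ) (z : V5) : rot s z 4 = z 4 := rfl

lemma rot_re_0 (s : ℝ) (z : V5) : (rot s z 0).re =
    f1 s z * (z 0).re + f2 s z * (J1 z * (z 2).re - J2 z * (z 1).re) := by simp
lemma rot_im_0 (s : ℝ) (z : V5) : (rot s z 0).im =
    f1 s z * (z 0).im + f2 s z * (J1 z * (z 2).im - J2 z * (z 1).im) := by simp
lemma rot_re_1 (s : ℝ) (z : V5) : (rot s z 1).re =
    f1 s z * (z 1).re + f2 s z * (J2 z * (z 0).re - J0 z * (z 2).re) := by simp
lemma rot_im_1 (s : ℝ) (z : V5) : (rot s z 1).im =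
    f1 s z * (z 1).im + f2 s z * (J2 z * (z 0).im - J0 z * (z 2).im) := by simp
lemma rot_re_2 (s : ℝ) (z : V5) : (rot s z 2).re =
    f1 s z * (z 2).re + f2 s z * (J0 z * (z 1).re - J1 z * (z 0).re) := by simp
lemma rot_im_2 (s : ℝ) (z : V5) : (rot s z 2).im =
    f1 s z * (z 2).im + f2 s z * (J0 z * (z 1).im - J1 z * (z 0).im) := by simp

/-- The moment vector is orthogonal to the real part. -/
lemma J_dot_re (z : V5) : J0 z * (z 0).re + J1 z * (z 1).re + J2 z * (z 2).re = 0 := by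
  simp only [J0, J1, J2, pl]; ring

lemma J_dot_im (z : V5) : J0 z * (z 0).im + J1 z * (z 1).im + J2 z * (z 2).im = 0 := by
  simp only [J0, J1, J2, pl]; ring

lemma J_dot_K (z : V5) : J0 z * K0 z + J1 z * K1 z + J2 z * K2 z = 0 := by
  simp only [J0, J1, J2, K0, K1, K2, pl]; ring

/-- generic cross-product computation behind `J (rot) = J` -/
lemma J_rot_aux (f g b0 b1 b2 a0 a1 a2 c0 c1 c2 : ℝ) :
    (f * a1 + g * (b2 * a0 - b0 * a2)) * (f * c2 + g * (b0 * c1 - b1 * c0))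
      - (f * c1 + g * (b2 * c0 - b0 * c2)) * (f * a2 + g * (b0 * a1 - b1 * a0))
    = f ^ 2 * (a1 * c2 - c1 * a2)
      + f * g * (b1 * (a0 * c1 - c0 * a1) - b2 * (a2 * c0 - c2 * a0))
      + g ^ 2 * b0 * (b0 * (a1 * c2 - c1 * a2) + b1 * (a2 * c0 - c2 * a0)
          + b2 * (a0 * c1 - c0 * a1)) := by
  ring

lemma J0_rot (s : ℝ) (z : V5) : J0 (rot s z) = J0 z := by
  have h0 : J0 z = (z 1).re * (z 2).im - (z 1).im * (z 2).re := rfl
  have h1 : J1 z = (z 2).re * (z 0).im - (z 2).im * (z 0).re := rfl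
  have h2 : J2 z = (z 0).re * (z 1).im - (z 0).im * (z 1).re := rfl
  have hr := f_rel s z
  have e : J0 (rot s z) = (rot s z 1).re * (rot s z 2).im - (rot s z 1).im * (rot s z 2).re := rfl
  rw [e, rot_re_1, rot_im_1, rot_re_2, rot_im_2, J_rot_aux, ← h0, ← h1, ← h2]
  unfold uu at hr
  linear_combination (J0 z) * hr

lemma J1_rot (s : ℝ) (z : V5) : J1 (rot s z) = J1 z := by
  have h0 : J0 z = (z 1).re * (z 2).im - (z 1).im * (z 2).re := rfl
  have h1 : J1 z = (z 2).re * (z 0).im - (z 2).im * (z 0).re := rfl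
  have h2 : J2 z = (z 0).re * (z 1).im - (z 0).im * (z 1).re := rfl
  have hr := f_rel s z
  have e : J1 (rot s z) = (rot s z 2).re * (rot s z 0).im - (rot s z 2).im * (rot s z 0).re := rfl
  rw [e, rot_re_0, rot_im_0, rot_re_2, rot_im_2]
  have := J_rot_aux (f1 s z) (f2 s z) (J1 z) (J2 z) (J0 z) (z 1).re (z 2).re (z 0).re
    (z 1).im (z 2).im (z 0).im
  rw [this, ← h0, ← h1, ← h2]
  unfold uu at hr
  linear_combination (J1 z) * hr

lemma J2_rot (s : ℝ) (z : V5) : J2 (rot s z) = J2 z := by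
  have h0 : J0 z = (z 1).re * (z 2).im - (z 1).im * (z 2).re := rfl
  have h1 : J1 z = (z 2).re * (z 0).im - (z 2).im * (z 0).re := rfl
  have h2 : J2 z = (z 0).re * (z 1).im - (z 0).im * (z 1).re := rfl
  have hr := f_rel s z
  have e : J2 (rot s z) = (rot s z 0).re * (rot s z 1).im - (rot s z 0).im * (rot s z 1).re := rfl
  rw [e, rot_re_0, rot_im_0, rot_re_1, rot_im_1]
  have := J_rot_aux (f1 s z) (f2 s z) (J2 z) (J0 z) (J1 z) (z 2).re (z 0).re (z 1).re
    (z 2).im (z 0).im (z 1).im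
  rw [this, ← h0, ← h1, ← h2]
  unfold uu at hr
  linear_combination (J2 z) * hr

lemma uu_rot (s : ℝ) (z : V5) : uu (rot s z) = uu z := by
  unfold uu; rw [J0_rot, J1_rot, J2_rot]

lemma K0_rot (s : ℝ) (z : V5) :
    K0 (rot s z) = f1 s z * K0 z + f2 s z * (J1 z * K2 z - J2 z * K1 z) := by
  have e : K0 (rot s z) = (rot s z 3).re * (rot s z 0).im - (rot s z 3).im * (rot s z 0).re := rfl
  rw [e, rot_im_0, rot_re_0, rot_3]
  simp only [K0, K1, K2, pl]; ring

lemma K1_rot (s : ℝ) (z : V5) :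
    K1 (rot s z) = f1 s z * K1 z + f2 s z * (J2 z * K0 z - J0 z * K2 z) := by
  have e : K1 (rot s z) = (rot s z 3).re * (rot s z 1).im - (rot s z 3).im * (rot s z 1).re := rfl
  rw [e, rot_im_1, rot_re_1, rot_3]
  simp only [K0, K1, K2, pl]; ring

lemma K2_rot (s : ℝ) (z : V5) :
    K2 (rot s z) = f1 s z * K2 z + f2 s z * (J0 z * K1 z - J1 z * K0 z) := by
  have e : K2 (rot s z) = (rot s z 3).re * (rot s z 2).im - (rot s z 3).im * (rot s z 2).re := rfl
  rw [e, rot_im_2, rot_re_2, rot_3]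
  simp only [K0, K1, K2, pl]; ring

/-- The Cayley relation for a vector orthogonal to the axis. -/
lemma cayley_rel (s u f g b0 b1 b2 e0 e1 e2 p0 p1 p2 : ℝ)
    (hu : u = b0 ^ 2 + b1 ^ 2 + b2 ^ 2) (hd : 1 + s ^ 2 * u ≠ 0)
    (hf : f = (1 - s ^ 2 * u) / (1 + s ^ 2 * u)) (hg : g = 2 * s / (1 + s ^ 2 * u))
    (horth : b0 * e0 + b1 * e1 + b2 * e2 = 0)
    (h0 : p0 = f * e0 + g * (b1 * e2 - b2 * e1))
    (h1 : p1 = f * e1 + g * (b2 * e0 - b0 * e2))
    (h2 : p2 = f * e2 + g * (b0 * e1 - b1 * e0)) :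
    p0 - e0 = s * (b1 * (e2 + p2) - b2 * (e1 + p1)) ∧
    p1 - e1 = s * (b2 * (e0 + p0) - b0 * (e2 + p2)) ∧
    p2 - e2 = s * (b0 * (e1 + p1) - b1 * (e0 + p0)) := by
  have hf' : f * (1 + s ^ 2 * u) = 1 - s ^ 2 * u := by rw [hf]; field_simp
  have hg' : g * (1 + s ^ 2 * u) = 2 * s := by rw [hg]; field_simp
  subst h0 h1 h2
  refine ⟨?_, ?_, ?_⟩
  · have : (1 + s ^ 2 * u) * (f * e0 + g * (b1 * e2 - b2 * e1) - e0
        - s * (b1 * (e2 + (f * e2 + g * (b0 * e1 - b1 * e0)))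
            - b2 * (e1 + (f * e1 + g * (b2 * e0 - b0 * e2))))) = 0 := by
      subst hu
      linear_combination (e0 - s * b1 * e2 + s * b2 * e1) * hf'
        + (b1 * e2 - b2 * e1 - s * b1 * (b0 * e1 - b1 * e0) + s * b2 * (b2 * e0 - b0 * e2)) * hg'
        + (-2 * s ^ 2 * b0) * horth
    have h3 := (mul_eq_zero.1 this).resolve_left hd
    linarith
  · have : (1 + s ^ 2 * u) * (f * e1 + g * (b2 * e0 - b0 * e2) - e1
        - s * (b2 * (e0 + (f * e0 + g * (b1 * e2 - b2 * e1)))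
            - b0 * (e2 + (f * e2 + g * (b0 * e1 - b1 * e0))))) = 0 := by
      subst hu
      linear_combination (e1 - s * b2 * e0 + s * b0 * e2) * hf'
        + (b2 * e0 - b0 * e2 - s * b2 * (b1 * e2 - b2 * e1) + s * b0 * (b0 * e1 - b1 * e0)) * hg'
        + (-2 * s ^ 2 * b1) * horth
    have h3 := (mul_eq_zero.1 this).resolve_left hd
    linarith
  · have : (1 + s ^ 2 * u) * (f * e2 + g * (b0 * e1 - b1 * e0) - e2
        - s * (b0 * (e1 + (f * e1 + g * (b2 * e0 - b0 * e2)))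
            - b1 * (e0 + (f * e0 + g * (b1 * e2 - b2 * e1))))) = 0 := by
      subst hu
      linear_combination (e2 - s * b0 * e1 + s * b1 * e0) * hf'
        + (b0 * e1 - b1 * e0 - s * b0 * (b2 * e0 - b0 * e2) + s * b1 * (b1 * e2 - b2 * e1)) * hg'
        + (-2 * s ^ 2 * b2) * horth
    have h3 := (mul_eq_zero.1 this).resolve_left hd
    linarith

end Crest.Agent.S0316Lib
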