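import Crest.Agent.S0316Lib.Defs

set_option autoImplicit false

namespace Crest.Agent.S0316Lib

open Crest.GeometryTopology.Quadric Complex

/-- The time-one linear map. -/
noncomputable def Vone (y : V5) : V5 :=
  ![((1 / 169 : ℝ) : ℂ) * (-144 * y 0 - 25 * y 1 + 60 * y 2 + 60 * y 3),
    ((1 / 169 : ℝ) : ℂ) * (-25 * y 0 - 144 * y 1 - 60 * y 2 - 60 * y 3),
    ((1 / 169 : ℝ) : ℂ) * (-60 * y 0 + 60 * y 1 - 144 * y 2 + 25 * y 3),
    ((1 / 169 : ℝ) : ℂ) * (-60 * y 0 + 60 * y 1 + 25 * y 2 - 144 * y 3),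
    y 4]

lemma Vone_re_0 (y : V5) : (Vone y 0).re =
    (-144 * (y 0).re - 25 * (y 1).re + 60 * (y 2).re + 60 * (y 3).re) / 169 := by
  simp [Vone]; ring
lemma Vone_im_0 (y : V5) : (Vone y 0).im =
    (-144 * (y 0).im - 25 * (y 1).im + 60 * (y 2).im + 60 * (y 3).im) / 169 := by
  simp [Vone]; ring
lemma Vone_re_1 (y : V5) : (Vone y 1).re =
    (-25 * (y 0).re - 144 * (y 1).re - 60 * (y 2).re - 60 * (y 3).re) / 169 := by
  simp [Vone]; ring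
lemma Vone_im_1 (y : V5) : (Vone y 1).im =
    (-25 * (y 0).im - 144 * (y 1).im - 60 * (y 2).im - 60 * (y 3).im) / 169 := by
  simp [Vone]; ring
lemma Vone_re_2 (y : V5) : (Vone y 2).re =
    (-60 * (y 0).re + 60 * (y 1).re - 144 * (y 2).re + 25 * (y 3).re) / 169 := by
  simp [Vone]; ring
lemma Vone_im_2 (y : V5) : (Vone y 2).im =
    (-60 * (y 0).im + 60 * (y 1).im - 144 * (y 2).im + 25 * (y 3).im) / 169 := by
  simp [Vone]; ring
lemma Vone_re_3 (y : V5) : (Vone y 3).re =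
    (-60 * (y 0).re + 60 * (y 1).re + 25 * (y 2).re - 144 * (y 3).re) / 169 := by
  simp [Vone]; ring
lemma Vone_im_3 (y : V5) : (Vone y 3).im =
    (-60 * (y 0).im + 60 * (y 1).im + 25 * (y 2).im - 144 * (y 3).im) / 169 := by
  simp [Vone]; ring
@[simp] lemma Vone_4 (y : V5) : Vone y 4 = y 4 := rfl

/-- `X` and `Y`: the two `S²` coordinates. -/
noncomputable def X0 (z : V5) : ℝ := -2 * (K0 z + J0 z)
noncomputable def X1 (z : V5) : ℝ := -2 * (K1 z + J1 z)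
noncomputable def X2 (z : V5) : ℝ := -2 * (K2 z + J2 z)
noncomputable def Y0 (z : V5) : ℝ := 2 * (K0 z - J0 z)
noncomputable def Y1 (z : V5) : ℝ := 2 * (K1 z - J1 z)
noncomputable def Y2 (z : V5) : ℝ := 2 * (K2 z - J2 z)

lemma X0_Vone (y : V5) : X0 (Vone y) = X0 y := by
  simp only [X0, K0, J0, pl, Vone_re_0, Vone_im_0, Vone_re_1, Vone_im_1, Vone_re_2, Vone_im_2,
    Vone_re_3, Vone_im_3]
  ring
lemma X1_Vone (y : V5) : X1 (Vone y) = (119 * X1 y + 120 * X2 y) / 169 := by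
  simp only [X1, X2, K1, K2, J1, J2, pl, Vone_re_0, Vone_im_0, Vone_re_1, Vone_im_1, Vone_re_2,
    Vone_im_2, Vone_re_3, Vone_im_3]
  ring
lemma X2_Vone (y : V5) : X2 (Vone y) = (-120 * X1 y + 119 * X2 y) / 169 := by
  simp only [X1, X2, K1, K2, J1, J2, pl, Vone_re_0, Vone_im_0, Vone_re_1, Vone_im_1, Vone_re_2,
    Vone_im_2, Vone_re_3, Vone_im_3]
  ring
lemma Y0_Vone (y : V5) : Y0 (Vone y) = (119 * Y0 y - 120 * Y2 y) / 169 := by
  simp only [Y0, Y2, K0, K2, J0, J2, pl, Vone_re_0, Vone_im_0, Vone_re_1, Vone_im_1, Vone_re_2,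
    Vone_im_2, Vone_re_3, Vone_im_3]
  ring
lemma Y1_Vone (y : V5) : Y1 (Vone y) = Y1 y := by
  simp only [Y1, K1, J1, pl, Vone_re_0, Vone_im_0, Vone_re_1, Vone_im_1, Vone_re_2,
    Vone_im_2, Vone_re_3, Vone_im_3]
  ring
lemma Y2_Vone (y : V5) : Y2 (Vone y) = (120 * Y0 y + 119 * Y2 y) / 169 := by
  simp only [Y0, Y2, K0, K2, J0, J2, pl, Vone_re_0, Vone_im_0, Vone_re_1, Vone_im_1, Vone_re_2,
    Vone_im_2, Vone_re_3, Vone_im_3]
  ring

/-- Plücker coordinates and unit scalars. -/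
lemma pl_smul (c : ℂ) (z : V5) (j k : Fin 5) : pl (c • z) j k = normSq c * pl z j k := by
  simp [pl, normSq_apply]; ring

lemma J0_smul (c : ℂ) (z : V5) : J0 (c • z) = normSq c * J0 z := pl_smul c z _ _
lemma J1_smul (c : ℂ) (z : V5) : J1 (c • z) = normSq c * J1 z := pl_smul c z _ _
lemma J2_smul (c : ℂ) (z : V5) : J2 (c • z) = normSq c * J2 z := pl_smul c z _ _
lemma K0_smul (c : ℂ) (z : V5) : K0 (c • z) = normSq c * K0 z := pl_smul c z _ _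
lemma K1_smul (c : ℂ) (z : V5) : K1 (c • z) = normSq c * K1 z := pl_smul c z _ _
lemma K2_smul (c : ℂ) (z : V5) : K2 (c • z) = normSq c * K2 z := pl_smul c z _ _

/-- Real form of the cone equations. -/
lemma cone_real {z : V5} (hz : z ∈ unitCone) :
    (z 0).re ^ 2 + (z 1).re ^ 2 + (z 2).re ^ 2 + (z 3).re ^ 2 + (z 4).re ^ 2
      + ((z 0).im ^ 2 + (z 1).im ^ 2 + (z 2).im ^ 2 + (z 3).im ^ 2 + (z 4).im ^ 2) = 1 ∧
    (z 0).re ^ 2 + (z 1).re ^ 2 + (z 2).re ^ 2 + (z 3).re ^ 2 + (z 4).re ^ 2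
      - ((z 0).im ^ 2 + (z 1).im ^ 2 + (z 2).im ^ 2 + (z 3).im ^ 2 + (z 4).im ^ 2) = 0 ∧
    (z 0).re * (z 0).im + (z 1).re * (z 1).im + (z 2).re * (z 2).im + (z 3).re * (z 3).im
      + (z 4).re * (z 4).im = 0 := by
  obtain ⟨h1, h2⟩ := hz
  have h1r := congrArg Complex.re h1
  have h2r := congrArg Complex.re h2
  have h2i := congrArg Complex.im h2
  simp only [herm, Fin.sum_univ_five, add_re, add_im, mul_re, mul_im, conj_re, conj_im, one_re,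
    zero_re, zero_im, pow_two] at h1r h2r h2i
  refine ⟨by nlinarith, by nlinarith, by nlinarith⟩

lemma mem_cone_of_real {z : V5}
    (h1 : (z 0).re ^ 2 + (z 1).re ^ 2 + (z 2).re ^ 2 + (z 3).re ^ 2 + (z 4).re ^ 2
      + ((z 0).im ^ 2 + (z 1).im ^ 2 + (z 2).im ^ 2 + (z 3).im ^ 2 + (z 4).im ^ 2) = 1)
    (h2 : (z 0).re ^ 2 + (z 1).re ^ 2 + (z 2).re ^ 2 + (z 3).re ^ 2 + (z 4).re ^ 2
      - ((z 0).im ^ 2 + (z 1).im ^ 2 + (z 2).im ^ 2 + (z 3).im ^ 2 + (z 4).im ^ 2) = 0)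
    (h3 : (z 0).re * (z 0).im + (z 1).re * (z 1).im + (z 2).re * (z 2).im + (z 3).re * (z 3).im
      + (z 4).re * (z 4).im = 0) : z ∈ unitCone := by
  refine ⟨?_, ?_⟩
  · apply Complex.ext
    · simp only [herm, Fin.sum_univ_five, add_re, mul_re, conj_re, conj_im, one_re]
      nlinarith
    · simp only [herm, Fin.sum_univ_five, add_im, mul_im, conj_re, conj_im, one_im]
      ring
  · apply Complex.ext
    · simp only [Fin.sum_univ_five, add_re, mul_re, zero_re, pow_two]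
      nlinarith
    · simp only [Fin.sum_univ_five, add_im, mul_im, zero_im, pow_two]
      nlinarith

/-- norm identity on the hyperplane section. -/
lemma JK_norm {z : V5} (hz : z ∈ unitCone) (h4 : z 4 = 0) :
    J0 z ^ 2 + J1 z ^ 2 + J2 z ^ 2 + K0 z ^ 2 + K1 z ^ 2 + K2 z ^ 2 = 1 / 4 := by
  obtain ⟨h1, h2, h3⟩ := cone_real hz
  simp only [h4, zero_re, zero_im] at h1 h2 h3
  simp only [J0, J1, J2, K0, K1, K2, pl]
  set a0 := (z 0).re
  set a1 := (z 1).re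
  set a2 := (z 2).re
  set a3 := (z 3).re
  set c0 := (z 0).im
  set c1 := (z 1).im
  set c2 := (z 2).im
  set c3 := (z 3).im
  have hA : a0 ^ 2 + a1 ^ 2 + a2 ^ 2 + a3 ^ 2 = 1 / 2 := by nlinarith
  have hC : c0 ^ 2 + c1 ^ 2 + c2 ^ 2 + c3 ^ 2 = 1 / 2 := by nlinarith
  have hD : a0 * c0 + a1 * c1 + a2 * c2 + a3 * c3 = 0 := by nlinarith
  have key : (a1 * c2 - c1 * a2) ^ 2 + (a2 * c0 - c2 * a0) ^ 2 + (a0 * c1 - c0 * a1) ^ 2
      + (a3 * c0 - c3 * a0) ^ 2 + (a3 * c1 - c3 * a1) ^ 2 + (a3 * c2 - c3 * a2) ^ 2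
      = (a0 ^ 2 + a1 ^ 2 + a2 ^ 2 + a3 ^ 2) * (c0 ^ 2 + c1 ^ 2 + c2 ^ 2 + c3 ^ 2)
        - (a0 * c0 + a1 * c1 + a2 * c2 + a3 * c3) ^ 2 := by ring
  rw [key, hA, hC, hD]; norm_num

/-- Bound for `uu` on the cone. -/
lemma uu_le {z : V5} (hz : z ∈ unitCone) : uu z ≤ 1 / 4 := by
  obtain ⟨h1, h2, h3⟩ := cone_real hz
  simp only [uu, J0, J1, J2, pl]
  set a0 := (z 0).re
  set a1 := (z 1).re
  set a2 := (z 2).re
  set c0 := (z 0).im
  set c1 := (z 1).im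
  set c2 := (z 2).im
  have key : (a1 * c2 - c1 * a2) ^ 2 + (a2 * c0 - c2 * a0) ^ 2 + (a0 * c1 - c0 * a1) ^ 2
      = (a0 ^ 2 + a1 ^ 2 + a2 ^ 2) * (c0 ^ 2 + c1 ^ 2 + c2 ^ 2)
        - (a0 * c0 + a1 * c1 + a2 * c2) ^ 2 := by ring
  rw [key]
  have h5 := sq_nonneg (z 3).re
  have h6 := sq_nonneg (z 4).re
  have h7 := sq_nonneg (z 3).im
  have h8 := sq_nonneg (z 4).im
  have hA : a0 ^ 2 + a1 ^ 2 + a2 ^ 2 ≤ 1 / 2 := by nlinarith
  have hC : c0 ^ 2 + c1 ^ 2 + c2 ^ 2 ≤ 1 / 2 := by nlinarith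
  have hA0 : 0 ≤ a0 ^ 2 + a1 ^ 2 + a2 ^ 2 := by positivity
  have hC0 : 0 ≤ c0 ^ 2 + c1 ^ 2 + c2 ^ 2 := by positivity
  nlinarith [sq_nonneg (a0 * c0 + a1 * c1 + a2 * c2),
    mul_le_mul hA hC hC0 (by norm_num : (0 : ℝ) ≤ 1 / 2)]

/-- The purely real algebra: solving the fixed point equations on `S² × S²`. -/
lemma solve_real (j0 j1 j2 k0 k1 k2 p0 p1 p2 : ℝ)
    (E1 : -2 * (k0 + j0) = -2 * (p0 + j0))
    (E2 : -2 * (k1 + j1) = (119 * (-2 * (p1 + j1)) + 120 * (-2 * (p2 + j2))) / 169)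
    (E3 : -2 * (k2 + j2) = (-120 * (-2 * (p1 + j1)) + 119 * (-2 * (p2 + j2))) / 169)
    (E4 : 2 * (k0 - j0) = (119 * (2 * (p0 - j0)) - 120 * (2 * (p2 - j2))) / 169)
    (E5 : 2 * (k1 - j1) = 2 * (p1 - j1))
    (E6 : 2 * (k2 - j2) = (120 * (2 * (p0 - j0)) + 119 * (2 * (p2 - j2))) / 169)
    (hJK : j0 * k0 + j1 * k1 + j2 * k2 = 0)
    (hN : j0 ^ 2 + j1 ^ 2 + j2 ^ 2 + k0 ^ 2 + k1 ^ 2 + k2 ^ 2 = 1 / 4)
    (hC : p2 - k2 = (65 / 36) * (j0 * (k1 + p1) - j1 * (k0 + p0))) :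
    j1 = j0 ∧ j2 = 0 ∧ k1 = -k0 ∧ k2 = (5 / 12) * (k0 - j0) ∧
      ((k0 + j0 = 0 ∧ k0 - j0 = -6 / 13) ∨
        ((k0 + j0) ^ 2 = 17352 / 97969 ∧ k0 - j0 = 78 / 313)) := by
  have hp0 : p0 = k0 := by linarith
  have hp1 : p1 = k1 := by linarith
  subst hp0 hp1
  have h2a : 50 * (p1 + j1) = 120 * (p2 + j2) := by linarith
  have h2b : 50 * (p0 - j0) = -120 * (p2 - j2) := by linarith
  have hk2a : k2 + j2 = -(5 / 12) * (p1 + j1) := by linarith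
  have hk2b : k2 - j2 = (5 / 12) * (p0 - j0) := by linarith
  have hj2 : j2 = 0 := by linarith
  subst hj2
  have hp2 : p2 = -k2 := by linarith
  subst hp2
  have hk : p0 + p1 = j0 - j1 := by linarith
  have hk2 : k2 = (5 / 12) * (p0 - j0) := by linarith
  -- new variables
  obtain ⟨a, ha⟩ : ∃ a, a = p0 + j0 := ⟨_, rfl⟩
  obtain ⟨m, hm⟩ : ∃ m, m = p0 - j0 := ⟨_, rfl⟩
  obtain ⟨b, hb⟩ : ∃ b, b = p1 - j1 := ⟨_, rfl⟩
  have hk0 : p0 = (a + m) / 2 := by rw [ha, hm]; ring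
  have hj0 : j0 = (a - m) / 2 := by rw [ha, hm]; ring
  have hj1 : j1 = (-b - m) / 2 := by rw [hb, hm]; linarith
  have hk1 : p1 = (b - m) / 2 := by rw [hb, hm]; linarith
  have hk2' : k2 = (5 / 12) * m := by rw [hk2, hm]
  subst hk0 hj0 hj1 hk1 hk2'
  have e1 : a ^ 2 = b ^ 2 := by nlinarith
  have e2 : (a ^ 2 + b ^ 2) / 2 + m ^ 2 + (25 / 144) * m ^ 2 = 1 / 4 := by nlinarith
  have e3 : a * b + m ^ 2 = -(6 / 13) * m := by nlinarith
  have hcase : b = -a ∨ b = a := by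
    have : (b + a) * (b - a) = 0 := by nlinarith
    rcases mul_eq_zero.1 this with h | h
    · left; linarith
    · right; linarith
  have goal_of : b = -a → (a = 0 ∧ m = -6 / 13) ∨ (a ^ 2 = 17352 / 97969 ∧ m = 78 / 313) := by
    intro hb'
    subst hb'
    have e4 : (m + 6 / 13) * (m - 78 / 313) = 0 := by nlinarith
    rcases mul_eq_zero.1 e4 with h | h
    · left
      have hm' : m = -6 / 13 := by linarith
      subst hm'
      refine ⟨?_, rfl⟩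
      have : a ^ 2 = 0 := by nlinarith
      exact pow_eq_zero_iff (two_ne_zero) |>.1 this
    · right
      have hm' : m = 78 / 313 := by linarith
      subst hm'
      exact ⟨by nlinarith, rfl⟩
  have goal_main : b = -a ∧ ((a = 0 ∧ m = -6 / 13) ∨ (a ^ 2 = 17352 / 97969 ∧ m = 78 / 313)) := by
    rcases hcase with h | h
    · exact ⟨h, goal_of h⟩
    · subst h
      have e4 : (m + 6 / 13) * (m - 78 / 25) = 0 := by nlinarith
      rcases mul_eq_zero.1 e4 with h | h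
      · have hm' : m = -6 / 13 := by linarith
        subst hm'
        have : b ^ 2 = 0 := by nlinarith
        have hb0 : b = 0 := pow_eq_zero_iff (two_ne_zero) |>.1 this
        subst hb0
        exact ⟨by simp, Or.inl ⟨rfl, rfl⟩⟩
      · have hm' : m = 78 / 25 := by linarith
        subst hm'
        nlinarith [sq_nonneg b]
  obtain ⟨hb', hfin⟩ := goal_main
  subst hb'
  refine ⟨by ring, rfl, by ring, by ring, ?_⟩
  have e5 : (a + m) / 2 + (a - m) / 2 = a := by ring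
  have e6 : (a + m) / 2 - (a - m) / 2 = m := by ring
  rw [e5, e6]
  exact hfin

/-- The fixed point classification on `z 4 = 0`. -/
lemma fixed_classify {z : V5} {c : ℂ} (hz : z ∈ unitCone) (h4 : z 4 = 0) (hc : normSq c = 1)
    (hF : Vone (rot (65 / 36) z) = c • z) :
    J1 z = J0 z ∧ J2 z = 0 ∧ K1 z = -K0 z ∧ K2 z = (5 / 12) * (K0 z - J0 z) ∧
      ((K0 z + J0 z = 0 ∧ K0 z - J0 z = -6 / 13) ∨
        ((K0 z + J0 z) ^ 2 = 17352 / 97969 ∧ K0 z - J0 z = 78 / 313)) := by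
  set y := rot (65 / 36) z with hy
  have eX0 : X0 (Vone y) = X0 z := by
    rw [hF]; simp only [X0, K0_smul, J0_smul, hc, one_mul]
  have eX1 : X1 (Vone y) = X1 z := by
    rw [hF]; simp only [X1, K1_smul, J1_smul, hc, one_mul]
  have eX2 : X2 (Vone y) = X2 z := by
    rw [hF]; simp only [X2, K2_smul, J2_smul, hc, one_mul]
  have eY0 : Y0 (Vone y) = Y0 z := by
    rw [hF]; simp only [Y0, K0_smul, J0_smul, hc, one_mul]
  have eY1 : Y1 (Vone y) = Y1 z := by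
    rw [hF]; simp only [Y1, K1_smul, J1_smul, hc, one_mul]
  have eY2 : Y2 (Vone y) = Y2 z := by
    rw [hF]; simp only [Y2, K2_smul, J2_smul, hc, one_mul]
  rw [X0_Vone] at eX0
  rw [X1_Vone] at eX1
  rw [X2_Vone] at eX2
  rw [Y0_Vone] at eY0
  rw [Y1_Vone] at eY1
  rw [Y2_Vone] at eY2
  have hJ0 : J0 y = J0 z := J0_rot _ _
  have hJ1 : J1 y = J1 z := J1_rot _ _
  have hJ2 : J2 y = J2 z := J2_rot _ _
  simp only [X0, X1, X2, Y0, Y1, Y2, hJ0, hJ1, hJ2] at eX0 eX1 eX2 eY0 eY1 eY2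
  obtain ⟨_, _, hC⟩ := cayley_rel (65 / 36) (uu z) (f1 (65 / 36) z) (f2 (65 / 36) z)
    (J0 z) (J1 z) (J2 z) (K0 z) (K1 z) (K2 z) (K0 y) (K1 y) (K2 y) rfl
    (dd_ne _ _) rfl rfl (J_dot_K z) (K0_rot _ _) (K1_rot _ _) (K2_rot _ _)
  exact solve_real (J0 z) (J1 z) (J2 z) (K0 z) (K1 z) (K2 z) (K0 y) (K1 y) (K2 y)
    eX0.symm eX1.symm eX2.symm eY0.symm eY1.symm eY2.symm (J_dot_K z) (JK_norm hz h4) hC

end Crest.Agent.S0316Lib
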