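import Crest.Agent.S0316Lib.Lines

set_option autoImplicit false

namespace Crest.Agent.S0316Lib

open Crest.GeometryTopology.Quadric Complex
open scoped ContDiff Topology

/-! ### Constants -/

noncomputable def thetaV : ℝ := Real.arcsin (5 / 13)

lemma sin_thetaV : Real.sin thetaV = 5 / 13 :=
  Real.sin_arcsin (by norm_num) (by norm_num)

lemma cos_thetaV : Real.cos thetaV = 12 / 13 := by
  rw [thetaV, Real.cos_arcsin]
  rw [show (1 - (5 / 13 : ℝ) ^ 2) = (12 / 13) ^ 2 by norm_num]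
  exact Real.sqrt_sq (by norm_num)

noncomputable def A1 : ℝ := Real.pi - thetaV
noncomputable def A2 : ℝ := thetaV

lemma cos_A1 : Real.cos A1 = -(12 / 13) := by rw [A1, Real.cos_pi_sub, cos_thetaV]
lemma sin_A1 : Real.sin A1 = 5 / 13 := by rw [A1, Real.sin_pi_sub, sin_thetaV]
lemma cos_A2 : Real.cos A2 = 12 / 13 := cos_thetaV
lemma sin_A2 : Real.sin A2 = 5 / 13 := sin_thetaV

/-! ### The linear flow -/

noncomputable def Vf (cc ss cs sc : ℝ) (y : V5) : V5 :=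
  ![(cc : ℂ) * y 0 - (ss : ℂ) * y 1 - (cs : ℂ) * y 2 + (sc : ℂ) * y 3,
    -(ss : ℂ) * y 0 + (cc : ℂ) * y 1 - (sc : ℂ) * y 2 + (cs : ℂ) * y 3,
    (cs : ℂ) * y 0 + (sc : ℂ) * y 1 + (cc : ℂ) * y 2 + (ss : ℂ) * y 3,
    -(sc : ℂ) * y 0 - (cs : ℂ) * y 1 + (ss : ℂ) * y 2 + (cc : ℂ) * y 3,
    y 4]

noncomputable def ccT (θ : ℝ) : ℝ := Real.cos (A1 * θ) * Real.cos (A2 * θ)
noncomputable def ssT (θ : ℝ) : ℝ := Real.sin (A1 * θ) * Real.sin (A2 * θ)
noncomputable def csT (θ : ℝ) : ℝ := Real.cos (A1 * θ) * Real.sin (A2 * θ)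
noncomputable def scT (θ : ℝ) : ℝ := Real.sin (A1 * θ) * Real.cos (A2 * θ)

noncomputable def VT (θ : ℝ) (y : V5) : V5 := Vf (ccT θ) (ssT θ) (csT θ) (scT θ) y

lemma hasDerivAt_cosA (a θ : ℝ) :
    HasDerivAt (fun r => Real.cos (a * r)) (-(a * Real.sin (a * θ))) θ := by
  have h := (Real.hasDerivAt_cos (a * θ)).comp θ ((hasDerivAt_id θ).const_mul a)
  simpa [mul_comm, Function.comp_def] using h

lemma hasDerivAt_sinA (a θ : ℝ) :
    HasDerivAt (fun r => Real.sin (a * r)) (a * Real.cos (a * θ)) θ := by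
  have h := (Real.hasDerivAt_sin (a * θ)).comp θ ((hasDerivAt_id θ).const_mul a)
  simpa [mul_comm, Function.comp_def] using h

lemma hasDerivAt_ccT (θ : ℝ) : HasDerivAt ccT (-A1 * scT θ - A2 * csT θ) θ := by
  have h := (hasDerivAt_cosA A1 θ).mul (hasDerivAt_cosA A2 θ)
  exact h.congr_deriv (by simp only [scT, csT]; ring)

lemma hasDerivAt_ssT (θ : ℝ) : HasDerivAt ssT (A1 * csT θ + A2 * scT θ) θ := by
  have h := (hasDerivAt_sinA A1 θ).mul (hasDerivAt_sinA A2 θ)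
  exact h.congr_deriv (by simp only [scT, csT]; ring)

lemma hasDerivAt_csT (θ : ℝ) : HasDerivAt csT (-A1 * ssT θ + A2 * ccT θ) θ := by
  have h := (hasDerivAt_cosA A1 θ).mul (hasDerivAt_sinA A2 θ)
  exact h.congr_deriv (by simp only [ssT, ccT]; ring)

lemma hasDerivAt_scT (θ : ℝ) : HasDerivAt scT (A1 * ccT θ - A2 * ssT θ) θ := by
  have h := (hasDerivAt_sinA A1 θ).mul (hasDerivAt_cosA A2 θ)
  exact h.congr_deriv (by simp only [ssT, ccT]; ring)

/-- The generator of the linear flow. -/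
noncomputable def Gen (w : V5) : V5 :=
  ![(A1 : ℂ) * w 3 - (A2 : ℂ) * w 2,
    -(A1 : ℂ) * w 2 + (A2 : ℂ) * w 3,
    (A1 : ℂ) * w 1 + (A2 : ℂ) * w 0,
    -(A1 : ℂ) * w 0 - (A2 : ℂ) * w 1,
    0]

lemma hasDerivAt_ofReal_mul {r : ℝ → ℝ} {r' θ : ℝ} (h : HasDerivAt r r' θ) (c : ℂ) :
    HasDerivAt (fun t => (r t : ℂ) * c) ((r' : ℂ) * c) θ :=
  h.ofReal_comp.mul_const c

lemma hasDerivAt_VT (θ : ℝ) (y : V5) :
    HasDerivAt (fun t => VT t y) (Gen (VT θ y)) θ := by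
  rw [hasDerivAt_pi]
  have hcc := fun c => hasDerivAt_ofReal_mul (hasDerivAt_ccT θ) c
  have hss := fun c => hasDerivAt_ofReal_mul (hasDerivAt_ssT θ) c
  have hcs := fun c => hasDerivAt_ofReal_mul (hasDerivAt_csT θ) c
  have hsc := fun c => hasDerivAt_ofReal_mul (hasDerivAt_scT θ) c
  intro i
  fin_cases i
  · have e : (fun t => VT t y 0) = fun t => (ccT t : ℂ) * y 0 - (ssT t : ℂ) * y 1
        - (csT t : ℂ) * y 2 + (scT t : ℂ) * y 3 := rfl
    show HasDerivAt (fun t => VT t y 0) _ θ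
    rw [e]
    refine (((hcc (y 0)).sub (hss (y 1))).sub (hcs (y 2))).add (hsc (y 3)) |>.congr_deriv ?_
    simp [Gen, VT, Vf]
    ring
  · have e : (fun t => VT t y 1) = fun t => (ccT t : ℂ) * y 1 - (ssT t : ℂ) * y 0
        - (scT t : ℂ) * y 2 + (csT t : ℂ) * y 3 := by
      funext t; simp [VT, Vf]; ring
    show HasDerivAt (fun t => VT t y 1) _ θ
    rw [e]
    refine (((hcc (y 1)).sub (hss (y 0))).sub (hsc (y 2))).add (hcs (y 3)) |>.congr_deriv ?_
    simp [Gen, VT, Vf]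
    ring
  · have e : (fun t => VT t y 2) = fun t => (csT t : ℂ) * y 0 + (scT t : ℂ) * y 1
        + (ccT t : ℂ) * y 2 + (ssT t : ℂ) * y 3 := rfl
    show HasDerivAt (fun t => VT t y 2) _ θ
    rw [e]
    refine (((hcs (y 0)).add (hsc (y 1))).add (hcc (y 2))).add (hss (y 3)) |>.congr_deriv ?_
    simp [Gen, VT, Vf]
    ring
  · have e : (fun t => VT t y 3) = fun t => (ccT t : ℂ) * y 3 - (scT t : ℂ) * y 0
        - (csT t : ℂ) * y 1 + (ssT t : ℂ) * y 2 := by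
      funext t; simp [VT, Vf]; ring
    show HasDerivAt (fun t => VT t y 3) _ θ
    rw [e]
    refine (((hcc (y 3)).sub (hsc (y 0))).sub (hcs (y 1))).add (hss (y 2)) |>.congr_deriv ?_
    simp [Gen, VT, Vf]
    ring
  · have e : (fun t => VT t y 4) = fun _ => y 4 := rfl
    show HasDerivAt (fun t => VT t y 4) _ θ
    rw [e]
    exact (hasDerivAt_const θ (y 4)).congr_deriv (by simp [Gen])

lemma Vf_re_0 (cc ss cs sc : ℝ) (y : V5) : (Vf cc ss cs sc y 0).re =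
    cc * (y 0).re - ss * (y 1).re - cs * (y 2).re + sc * (y 3).re := by simp [Vf]
lemma Vf_im_0 (cc ss cs sc : ℝ) (y : V5) : (Vf cc ss cs sc y 0).im =
    cc * (y 0).im - ss * (y 1).im - cs * (y 2).im + sc * (y 3).im := by simp [Vf]
lemma Vf_re_1 (cc ss cs sc : ℝ) (y : V5) : (Vf cc ss cs sc y 1).re =
    -ss * (y 0).re + cc * (y 1).re - sc * (y 2).re + cs * (y 3).re := by simp [Vf]
lemma Vf_im_1 (cc ss cs sc : ℝ) (y : V5) : (Vf cc ss cs sc y 1).im =
    -ss * (y 0).im + cc * (y 1).im - sc * (y 2).im + cs * (y 3).im := by simp [Vf]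
lemma Vf_re_2 (cc ss cs sc : ℝ) (y : V5) : (Vf cc ss cs sc y 2).re =
    cs * (y 0).re + sc * (y 1).re + cc * (y 2).re + ss * (y 3).re := by simp [Vf]
lemma Vf_im_2 (cc ss cs sc : ℝ) (y : V5) : (Vf cc ss cs sc y 2).im =
    cs * (y 0).im + sc * (y 1).im + cc * (y 2).im + ss * (y 3).im := by simp [Vf]
lemma Vf_re_3 (cc ss cs sc : ℝ) (y : V5) : (Vf cc ss cs sc y 3).re =
    -sc * (y 0).re - cs * (y 1).re + ss * (y 2).re + cc * (y 3).re := by simp [Vf]
lemma Vf_im_3 (cc ss cs sc : ℝ) (y : V5) : (Vf cc ss cs sc y 3).im =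
    -sc * (y 0).im - cs * (y 1).im + ss * (y 2).im + cc * (y 3).im := by simp [Vf]
@[simp] lemma Vf_4 (cc ss cs sc : ℝ) (y : V5) : Vf cc ss cs sc y 4 = y 4 := rfl

lemma Vf_mem_cone {cc ss cs sc : ℝ} (R1 : cc ^ 2 + ss ^ 2 + cs ^ 2 + sc ^ 2 = 1)
    (R2 : cc * ss = cs * sc) {y : V5} (hy : y ∈ unitCone) : Vf cc ss cs sc y ∈ unitCone := by
  obtain ⟨h1, h2, h3⟩ := cone_real hy
  apply mem_cone_of_real
  · simp only [Vf_re_0, Vf_re_1, Vf_re_2, Vf_re_3, Vf_im_0, Vf_im_1, Vf_im_2, Vf_im_3, Vf_4]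
    linear_combination h1
      + ((y 0).re ^ 2 + (y 1).re ^ 2 + (y 2).re ^ 2 + (y 3).re ^ 2
        + ((y 0).im ^ 2 + (y 1).im ^ 2 + (y 2).im ^ 2 + (y 3).im ^ 2)) * R1
      - 4 * ((y 0).re * (y 1).re - (y 2).re * (y 3).re
        + ((y 0).im * (y 1).im - (y 2).im * (y 3).im)) * R2
  · simp only [Vf_re_0, Vf_re_1, Vf_re_2, Vf_re_3, Vf_im_0, Vf_im_1, Vf_im_2, Vf_im_3, Vf_4]
    linear_combination h2
      + ((y 0).re ^ 2 + (y 1).re ^ 2 + (y 2).re ^ 2 + (y 3).re ^ 2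
        - ((y 0).im ^ 2 + (y 1).im ^ 2 + (y 2).im ^ 2 + (y 3).im ^ 2)) * R1
      - 4 * ((y 0).re * (y 1).re - (y 2).re * (y 3).re
        - ((y 0).im * (y 1).im - (y 2).im * (y 3).im)) * R2
  · simp only [Vf_re_0, Vf_re_1, Vf_re_2, Vf_re_3, Vf_im_0, Vf_im_1, Vf_im_2, Vf_im_3, Vf_4]
    linear_combination h3
      + ((y 0).re * (y 0).im + (y 1).re * (y 1).im + (y 2).re * (y 2).im + (y 3).re * (y 3).im) * R1
      - 2 * ((y 0).re * (y 1).im + (y 1).re * (y 0).im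
        - (y 2).re * (y 3).im - (y 3).re * (y 2).im) * R2

lemma VT_mem_cone (θ : ℝ) {y : V5} (hy : y ∈ unitCone) : VT θ y ∈ unitCone := by
  apply Vf_mem_cone _ _ hy
  · simp only [ccT, ssT, csT, scT]
    have h1 := Real.sin_sq_add_cos_sq (A1 * θ)
    have h2 := Real.sin_sq_add_cos_sq (A2 * θ)
    linear_combination (Real.sin (A2 * θ) ^ 2 + Real.cos (A2 * θ) ^ 2) * h1 + h2
  · simp only [ccT, ssT, csT, scT]; ring

lemma VT_zero (y : V5) : VT 0 y = y := by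
  funext i
  fin_cases i <;> simp [VT, Vf, ccT, ssT, csT, scT]

lemma VT_one (y : V5) : VT 1 y = Vone y := by
  have hcc : ccT 1 = -144 / 169 := by
    simp only [ccT, mul_one, cos_A1, cos_A2]; norm_num
  have hss : ssT 1 = 25 / 169 := by
    simp only [ssT, mul_one, sin_A1, sin_A2]; norm_num
  have hcs : csT 1 = -60 / 169 := by
    simp only [csT, mul_one, cos_A1, sin_A2]; norm_num
  have hsc : scT 1 = 60 / 169 := by
    simp only [scT, mul_one, sin_A1, cos_A2]; norm_num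
  funext i
  simp only [VT, hcc, hss, hcs, hsc]
  fin_cases i
  · simp [Vf, Vone]; ring
  · simp [Vf, Vone]; ring
  · simp [Vf, Vone]; ring
  · simp [Vf, Vone]; ring
  · simp [Vf, Vone]

lemma Vf_smul (cc ss cs sc : ℝ) (c : ℂ) (y : V5) :
    Vf cc ss cs sc (c • y) = c • Vf cc ss cs sc y := by
  funext i
  fin_cases i <;> simp [Vf] <;> ring

/-! ### Derivatives of Plücker coordinates -/

noncomputable def reP (j : Fin 5) : V5 →L[ℝ] ℝ :=
  Complex.reCLM.comp (ContinuousLinearMap.proj (R := ℝ) (φ := fun _ : Fin 5 => ℂ) j)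
noncomputable def imP (j : Fin 5) : V5 →L[ℝ] ℝ :=
  Complex.imCLM.comp (ContinuousLinearMap.proj (R := ℝ) (φ := fun _ : Fin 5 => ℂ) j)

@[simp] lemma reP_apply (j : Fin 5) (w : V5) : reP j w = (w j).re := rfl
@[simp] lemma imP_apply (j : Fin 5) (w : V5) : imP j w = (w j).im := rfl

noncomputable def plD (y : V5) (j k : Fin 5) : V5 →L[ℝ] ℝ :=
  ((y j).re • imP k + (y k).im • reP j) - ((y j).im • reP k + (y k).re • imP j)

lemma plD_apply (y w : V5) (j k : Fin 5) : plD y j k w =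
    (y j).re * (w k).im + (y k).im * (w j).re - ((y j).im * (w k).re + (y k).re * (w j).im) := by
  simp [plD]

lemma hasFDerivAt_pl (y : V5) (j k : Fin 5) :
    HasFDerivAt (fun x : V5 => pl x j k) (plD y j k) y := by
  have h1 := ((reP j).hasFDerivAt (x := y)).mul ((imP k).hasFDerivAt (x := y))
  have h2 := ((imP j).hasFDerivAt (x := y)).mul ((reP k).hasFDerivAt (x := y))
  exact h1.sub h2

noncomputable def uuD (y : V5) : V5 →L[ℝ] ℝ :=
  (2 * J0 y) • plD y 1 2 + (2 * J1 y) • plD y 2 0 + (2 * J2 y) • plD y 0 1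

lemma hasFDerivAt_uu (y : V5) : HasFDerivAt uu (uuD y) y := by
  have h0 := (hasFDerivAt_pl y 1 2).pow 2
  have h1 := (hasFDerivAt_pl y 2 0).pow 2
  have h2 := (hasFDerivAt_pl y 0 1).pow 2
  have h := (h0.add h1).add h2
  refine HasFDerivAt.congr_fderiv h ?_
  ext w
  simp [uuD, J0, J1, J2]

/-- The moment map of the linear flow -/
noncomputable def mG (x : V5) : ℝ :=
  2 * A1 * (K0 x + J0 x) + 2 * A2 * (K1 x - J1 x)

noncomputable def mGD (y : V5) : V5 →L[ℝ] ℝ :=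
  (2 * A1) • (plD y 3 0 + plD y 1 2) + (2 * A2) • (plD y 3 1 - plD y 2 0)

lemma hasFDerivAt_mG (y : V5) : HasFDerivAt mG (mGD y) y := by
  have h := (((hasFDerivAt_pl y 3 0).add (hasFDerivAt_pl y 1 2)).const_mul (2 * A1)).add
    (((hasFDerivAt_pl y 3 1).sub (hasFDerivAt_pl y 2 0)).const_mul (2 * A2))
  exact h

/-- imaginary part of the Hermitian product -/
lemma herm_im (u w : V5) : (herm u w).im =
    (u 0).re * (w 0).im - (u 0).im * (w 0).re + ((u 1).re * (w 1).im - (u 1).im * (w 1).re)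
    + ((u 2).re * (w 2).im - (u 2).im * (w 2).re) + ((u 3).re * (w 3).im - (u 3).im * (w 3).re)
    + ((u 4).re * (w 4).im - (u 4).im * (w 4).re) := by
  simp only [herm, Fin.sum_univ_five, add_im, mul_im, conj_re, conj_im]
  ring

lemma Gen_hamilton (y w : V5) : 2 * (herm (Gen y) w).im = mGD y w := by
  rw [herm_im]
  simp only [mGD, ContinuousLinearMap.add_apply, ContinuousLinearMap.smul_apply,
    ContinuousLinearMap.sub_apply, plD_apply, smul_eq_mul]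
  simp [Gen]
  ring

/-- the cross product with a fixed real vector -/
noncomputable def crossV (b0 b1 b2 : ℝ) (y : V5) : V5 :=
  ![(b1 : ℂ) * y 2 - (b2 : ℂ) * y 1, (b2 : ℂ) * y 0 - (b0 : ℂ) * y 2,
    (b0 : ℂ) * y 1 - (b1 : ℂ) * y 0, 0, 0]

lemma crossV_hamilton (b0 b1 b2 : ℝ) (y w : V5) : (herm (crossV b0 b1 b2 y) w).im =
    b0 * plD y 1 2 w + b1 * plD y 2 0 w + b2 * plD y 0 1 w := by
  rw [herm_im]
  simp only [plD_apply]
  simp [crossV]
  ring

/-! ### Derivative of the rotation in the parameter -/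

lemma J_dot_complex (z : V5) :
    (J0 z : ℂ) * z 0 + (J1 z : ℂ) * z 1 + (J2 z : ℂ) * z 2 = 0 := by
  apply Complex.ext
  · simpa using J_dot_re z
  · simpa using J_dot_im z

lemma hasDerivAt_f1 (s : ℝ) (z : V5) :
    HasDerivAt (fun r => f1 r z) (-4 * s * uu z / dd s z ^ 2) s := by
  have hn : HasDerivAt (fun r : ℝ => 1 - r ^ 2 * uu z) (-(2 * s * uu z)) s := by
    have := ((hasDerivAt_pow 2 s).mul_const (uu z)).const_sub 1
    simpa using this
  have hd : HasDerivAt (fun r : ℝ => 1 + r ^ 2 * uu z) (2 * s * uu z) s := by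
    have := ((hasDerivAt_pow 2 s).mul_const (uu z)).const_add 1
    simpa using this
  have hne : 1 + s ^ 2 * uu z ≠ 0 := dd_ne s z
  have h := hn.div hd hne
  refine HasDerivAt.congr_deriv h ?_
  have hdd : dd s z = 1 + s ^ 2 * uu z := rfl
  rw [hdd]
  field_simp
  ring

lemma hasDerivAt_f2 (s : ℝ) (z : V5) :
    HasDerivAt (fun r => f2 r z) (2 * (1 - s ^ 2 * uu z) / dd s z ^ 2) s := by
  have hn : HasDerivAt (fun r : ℝ => 2 * r) 2 s := by
    have := (hasDerivAt_id s).const_mul 2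
    simpa using this
  have hd : HasDerivAt (fun r : ℝ => 1 + r ^ 2 * uu z) (2 * s * uu z) s := by
    have := ((hasDerivAt_pow 2 s).mul_const (uu z)).const_add 1
    simpa using this
  have hne : 1 + s ^ 2 * uu z ≠ 0 := dd_ne s z
  have h := hn.div hd hne
  refine HasDerivAt.congr_deriv h ?_
  have hdd : dd s z = 1 + s ^ 2 * uu z := rfl
  rw [hdd]
  field_simp
  ring

/-- `∂_s rot = (2 / d) J × rot`. -/
lemma hasDerivAt_rot (s : ℝ) (z : V5) :
    HasDerivAt (fun r => rot r z)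
      ((2 / dd s z : ℝ) • crossV (J0 z) (J1 z) (J2 z) (rot s z)) s := by
  rw [hasDerivAt_pi]
  have h1 := fun c => hasDerivAt_ofReal_mul (hasDerivAt_f1 s z) c
  have h2 := fun c => hasDerivAt_ofReal_mul (hasDerivAt_f2 s z) c
  have hne := dd_ne s z
  have hdot := J_dot_complex z
  have hu : (uu z : ℂ) = (J0 z : ℂ) ^ 2 + (J1 z : ℂ) ^ 2 + (J2 z : ℂ) ^ 2 := by
    simp [uu]
  have r1 : -4 * s * uu z / dd s z ^ 2 = -(2 / dd s z) * f2 s z * uu z := by
    unfold f2; field_simp; ring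
  have r2 : 2 * (1 - s ^ 2 * uu z) / dd s z ^ 2 = (2 / dd s z) * f1 s z := by
    unfold f1; field_simp
  rw [r1] at h1
  rw [r2] at h2
  have c0 : (J1 z : ℂ) * rot s z 2 - (J2 z : ℂ) * rot s z 1 =
      (f1 s z : ℂ) * ((J1 z : ℂ) * z 2 - (J2 z : ℂ) * z 1) - (f2 s z : ℂ) * (uu z : ℂ) * z 0 := by
    rw [rot_1, rot_2, hu]
    linear_combination (f2 s z : ℂ) * (J0 z : ℂ) * hdot
  have c1 : (J2 z : ℂ) * rot s z 0 - (J0 z : ℂ) * rot s z 2 =
      (f1 s z : ℂ) * ((J2 z : ℂ) * z 0 - (J0 z : ℂ) * z 2) - (f2 s z : ℂ) * (uu z : ℂ) * z 1 := by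
    rw [rot_0, rot_2, hu]
    linear_combination (f2 s z : ℂ) * (J1 z : ℂ) * hdot
  have c2 : (J0 z : ℂ) * rot s z 1 - (J1 z : ℂ) * rot s z 0 =
      (f1 s z : ℂ) * ((J0 z : ℂ) * z 1 - (J1 z : ℂ) * z 0) - (f2 s z : ℂ) * (uu z : ℂ) * z 2 := by
    rw [rot_0, rot_1, hu]
    linear_combination (f2 s z : ℂ) * (J2 z : ℂ) * hdot
  intro i
  fin_cases i
  · have h := (h1 (z 0)).add (h2 ((J1 z : ℂ) * z 2 - (J2 z : ℂ) * z 1))
    refine HasDerivAt.congr_deriv h ?_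
    simp only [crossV]
    simp only [Pi.smul_apply, Complex.real_smul]
    change _ = _ * ((J1 z : ℂ) * rot s z 2 - (J2 z : ℂ) * rot s z 1)
    rw [c0]
    push_cast
    ring
  · have h := (h1 (z 1)).add (h2 ((J2 z : ℂ) * z 0 - (J0 z : ℂ) * z 2))
    refine HasDerivAt.congr_deriv h ?_
    simp only [crossV]
    simp only [Pi.smul_apply, Complex.real_smul]
    change _ = _ * ((J2 z : ℂ) * rot s z 0 - (J0 z : ℂ) * rot s z 2)
    rw [c1]
    push_cast
    ring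
  · have h := (h1 (z 2)).add (h2 ((J0 z : ℂ) * z 1 - (J1 z : ℂ) * z 0))
    refine HasDerivAt.congr_deriv h ?_
    simp only [crossV]
    simp only [Pi.smul_apply, Complex.real_smul]
    change _ = _ * ((J0 z : ℂ) * rot s z 1 - (J1 z : ℂ) * rot s z 0)
    rw [c2]
    push_cast
    ring
  · refine (hasDerivAt_const s (z 3)).congr_deriv ?_
    simp [crossV]
  · refine (hasDerivAt_const s (z 4)).congr_deriv ?_
    simp [crossV]

end Crest.Agent.S0316Lib
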