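import Crest.Agent.S0316Lib.Flow

set_option autoImplicit false

namespace Crest.Agent.S0316Lib

open Crest.GeometryTopology.Quadric Complex
open scoped ContDiff Topology

/-! ### The function `log (1 + y) / y` and an antiderivative of `1 / (1 + κ u)` -/

noncomputable def ell (y : ℝ) : ℝ := dslope (fun r => Real.log (1 + r)) 0 y

lemma ell_of_ne {y : ℝ} (hy : y ≠ 0) : ell y = Real.log (1 + y) / y := by
  unfold ell
  rw [dslope_of_ne _ hy, slope_def_field]
  simp

lemma ell_zero : ell 0 = 1 := by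
  unfold ell
  rw [dslope_same]
  have h1 : HasDerivAt (fun r : ℝ => 1 + r) 1 0 := by
    simpa using (hasDerivAt_id (0 : ℝ)).const_add 1
  have h := (Real.hasDerivAt_log (by norm_num : (1 + 0 : ℝ) ≠ 0)).comp (0 : ℝ) h1
  have h' : deriv (fun r : ℝ => Real.log (1 + r)) 0 = (1 + 0 : ℝ)⁻¹ * 1 := h.deriv
  rw [h']; norm_num

lemma ell_contDiffAt {y : ℝ} (hy : -1 < y) : ContDiffAt ℝ ((⊤ : ℕ∞) : WithTop ℕ∞) ell y := by
  by_cases h : y = 0
  · subst h
    have hA : AnalyticAt ℝ (fun r : ℝ => Real.log (1 + r)) 0 :=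
      (analyticAt_const.add analyticAt_id).log (by norm_num)
    obtain ⟨p, hp⟩ := hA
    exact (hp.has_fpower_series_dslope_fslope).analyticAt.contDiffAt
  · have e : ell =ᶠ[𝓝 y] fun r => Real.log (1 + r) / r :=
      (eventually_ne_nhds h).mono (fun r hr => ell_of_ne hr)
    refine ContDiffAt.congr_of_eventuallyEq ?_ e
    have hne : (1 + y) ≠ 0 := by linarith
    exact ((contDiffAt_const.add contDiffAt_id).log hne).div contDiffAt_id h

noncomputable def Lg (κ u : ℝ) : ℝ := u * ell (κ * u)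

lemma hasDerivAt_Lg {κ u : ℝ} (hκ : 0 ≤ κ) (hu : 0 ≤ u) :
    HasDerivAt (Lg κ) (1 / (1 + κ * u)) u := by
  rcases hκ.eq_or_lt with h | h
  · subst h
    have e : Lg 0 = fun r => r := by
      funext r; simp [Lg, ell_zero]
    rw [e]
    have h := hasDerivAt_id' u
    refine HasDerivAt.congr_deriv h ?_
    simp
  · have e : Lg κ = fun r => Real.log (1 + κ * r) / κ := by
      funext r
      unfold Lg
      by_cases hr : r = 0
      · simp [hr]
      · rw [ell_of_ne (mul_ne_zero h.ne' hr)]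
        field_simp
    rw [e]
    have hpos : 0 < 1 + κ * u := by positivity
    have h1 : HasDerivAt (fun r : ℝ => 1 + κ * r) κ u := by
      simpa using ((hasDerivAt_id u).const_mul κ).const_add 1
    have h2 := ((Real.hasDerivAt_log hpos.ne').comp u h1).div_const κ
    refine HasDerivAt.congr_deriv h2 ?_
    field_simp

/-! ### Time functions -/

noncomputable def sigmaT (t : ℝ) : ℝ := (65 / 36) * Real.smoothTransition (3 * t)
noncomputable def tauT (t : ℝ) : ℝ := Real.smoothTransition (3 * t - 2)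
noncomputable def dsig (t : ℝ) : ℝ := deriv sigmaT t
noncomputable def dtau (t : ℝ) : ℝ := deriv tauT t

lemma contDiff_sigmaT : ContDiff ℝ ∞ sigmaT := by
  unfold sigmaT
  have : ContDiff ℝ ∞ Real.smoothTransition := Real.smoothTransition.contDiff
  exact contDiff_const.mul (this.comp (contDiff_const.mul contDiff_id))

lemma contDiff_tauT : ContDiff ℝ ∞ tauT := by
  unfold tauT
  have : ContDiff ℝ ∞ Real.smoothTransition := Real.smoothTransition.contDiff
  exact this.comp ((contDiff_const.mul contDiff_id).sub contDiff_const)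

lemma contDiff_dsig : ContDiff ℝ ∞ dsig := (contDiff_infty_iff_deriv.1 contDiff_sigmaT).2
lemma contDiff_dtau : ContDiff ℝ ∞ dtau := (contDiff_infty_iff_deriv.1 contDiff_tauT).2

lemma hasDerivAt_sigmaT (t : ℝ) : HasDerivAt sigmaT (dsig t) t :=
  (contDiff_sigmaT.differentiable (by simp) t).hasDerivAt

lemma hasDerivAt_tauT (t : ℝ) : HasDerivAt tauT (dtau t) t :=
  (contDiff_tauT.differentiable (by simp) t).hasDerivAt

lemma tauT_near {t : ℝ} (ht : t ≤ 1 / 2) : ∀ᶠ s in 𝓝 t, tauT s = 0 := by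
  have : ∀ᶠ s in 𝓝 t, s < 2 / 3 := eventually_lt_nhds (by linarith)
  filter_upwards [this] with s hs
  exact Real.smoothTransition.zero_of_nonpos (by linarith)

lemma sigmaT_near {t : ℝ} (ht : 1 / 2 ≤ t) : ∀ᶠ s in 𝓝 t, sigmaT s = 65 / 36 := by
  have : ∀ᶠ s in 𝓝 t, 1 / 3 < s := eventually_gt_nhds (by linarith)
  filter_upwards [this] with s hs
  unfold sigmaT
  rw [Real.smoothTransition.one_of_one_le (by linarith)]
  norm_num

lemma dtau_zero {t : ℝ} (ht : t ≤ 1 / 2) : dtau t = 0 := by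
  have e : tauT =ᶠ[𝓝 t] fun _ => 0 := tauT_near ht
  unfold dtau
  rw [e.deriv_eq]
  simp

lemma dsig_zero {t : ℝ} (ht : 1 / 2 ≤ t) : dsig t = 0 := by
  have e : sigmaT =ᶠ[𝓝 t] fun _ => 65 / 36 := sigmaT_near ht
  unfold dsig
  rw [e.deriv_eq]
  simp

lemma sigmaT_zero : sigmaT 0 = 0 := by
  unfold sigmaT
  rw [Real.smoothTransition.zero_of_nonpos (by norm_num)]
  simp

lemma tauT_zero : tauT 0 = 0 := by
  unfold tauT
  rw [Real.smoothTransition.zero_of_nonpos (by norm_num)]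

lemma sigmaT_one : sigmaT 1 = 65 / 36 := by
  unfold sigmaT
  rw [Real.smoothTransition.one_of_one_le (by norm_num)]
  norm_num

lemma tauT_one : tauT 1 = 1 := by
  unfold tauT
  rw [Real.smoothTransition.one_of_one_le (by norm_num)]

/-! ### The lift -/

noncomputable def PsiFun (p : ℝ × V5) : V5 := VT (tauT p.1) (rot (sigmaT p.1) p.2)

noncomputable def HFun (p : ℝ × V5) : ℝ :=
  dtau p.1 * mG p.2 + 2 * dsig p.1 * Lg (sigmaT p.1 ^ 2) (uu p.2)

lemma PsiFun_one (z : V5) : PsiFun (1, z) = FF z := by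
  simp only [PsiFun, sigmaT_one, tauT_one, VT_one, FF]

lemma contDiff_pl (j k : Fin 5) : ContDiff ℝ ∞ (fun z : V5 => pl z j k) := by
  unfold pl
  have hre : ∀ j : Fin 5, ContDiff ℝ ∞ (fun z : V5 => (z j).re) :=
    fun j => (reP j).contDiff
  have him : ∀ j : Fin 5, ContDiff ℝ ∞ (fun z : V5 => (z j).im) :=
    fun j => (imP j).contDiff
  exact ((hre j).mul (him k)).sub ((him j).mul (hre k))

lemma contDiff_uu : ContDiff ℝ ∞ uu := by
  unfold uu J0 J1 J2
  exact (((contDiff_pl 1 2).pow 2).add ((contDiff_pl 2 0).pow 2)).add ((contDiff_pl 0 1).pow 2)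

lemma contDiff_J0 : ContDiff ℝ ∞ J0 := contDiff_pl 1 2
lemma contDiff_J1 : ContDiff ℝ ∞ J1 := contDiff_pl 2 0
lemma contDiff_J2 : ContDiff ℝ ∞ J2 := contDiff_pl 0 1

lemma contDiff_mG : ContDiff ℝ ∞ mG := by
  unfold mG K0 J0 K1 J1
  exact (contDiff_const.mul ((contDiff_pl 3 0).add (contDiff_pl 1 2))).add
    (contDiff_const.mul ((contDiff_pl 3 1).sub (contDiff_pl 2 0)))

lemma cd_ofReal {E : Type*} [NormedAddCommGroup E] [NormedSpace ℝ E] {f : E → ℝ}
    (hf : ContDiff ℝ ∞ f) : ContDiff ℝ ∞ (fun p => (f p : ℂ)) :=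
  Complex.ofRealCLM.contDiff.comp hf

lemma cd_snd_coord (j : Fin 5) : ContDiff ℝ ∞ (fun p : ℝ × V5 => p.2 j) :=
  (contDiff_apply ℝ ℂ j).comp contDiff_snd

lemma contDiff_rot : ContDiff ℝ ∞ (fun p : ℝ × V5 => rot (sigmaT p.1) p.2) := by
  have hσ : ContDiff ℝ ∞ (fun p : ℝ × V5 => sigmaT p.1) := contDiff_sigmaT.comp contDiff_fst
  have hu : ContDiff ℝ ∞ (fun p : ℝ × V5 => uu p.2) := contDiff_uu.comp contDiff_snd
  have hd : ContDiff ℝ ∞ (fun p : ℝ × V5 => dd (sigmaT p.1) p.2) := by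
    unfold dd
    exact contDiff_const.add ((hσ.pow 2).mul hu)
  have hf1 : ContDiff ℝ ∞ (fun p : ℝ × V5 => f1 (sigmaT p.1) p.2) := by
    unfold f1
    exact (contDiff_const.sub ((hσ.pow 2).mul hu)).div hd (fun p => dd_ne _ _)
  have hf2 : ContDiff ℝ ∞ (fun p : ℝ × V5 => f2 (sigmaT p.1) p.2) := by
    unfold f2
    exact (contDiff_const.mul hσ).div hd (fun p => dd_ne _ _)
  have hJ0 : ContDiff ℝ ∞ (fun p : ℝ × V5 => J0 p.2) := contDiff_J0.comp contDiff_snd
  have hJ1 : ContDiff ℝ ∞ (fun p : ℝ × V5 => J1 p.2) := contDiff_J1.comp contDiff_snd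
  have hJ2 : ContDiff ℝ ∞ (fun p : ℝ × V5 => J2 p.2) := contDiff_J2.comp contDiff_snd
  have c := cd_snd_coord
  rw [contDiff_pi]
  intro i
  fin_cases i
  · exact ((cd_ofReal hf1).mul (c 0)).add ((cd_ofReal hf2).mul
      (((cd_ofReal hJ1).mul (c 2)).sub ((cd_ofReal hJ2).mul (c 1))))
  · exact ((cd_ofReal hf1).mul (c 1)).add ((cd_ofReal hf2).mul
      (((cd_ofReal hJ2).mul (c 0)).sub ((cd_ofReal hJ0).mul (c 2))))
  · exact ((cd_ofReal hf1).mul (c 2)).add ((cd_ofReal hf2).mul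
      (((cd_ofReal hJ0).mul (c 1)).sub ((cd_ofReal hJ1).mul (c 0))))
  · exact c 3
  · exact c 4

lemma contDiff_PsiFun : ContDiff ℝ ∞ PsiFun := by
  have hy := contDiff_rot
  have hτ : ContDiff ℝ ∞ (fun p : ℝ × V5 => tauT p.1) := contDiff_tauT.comp contDiff_fst
  have hcc : ContDiff ℝ ∞ ccT := by unfold ccT; fun_prop
  have hss : ContDiff ℝ ∞ ssT := by unfold ssT; fun_prop
  have hcs : ContDiff ℝ ∞ csT := by unfold csT; fun_prop
  have hsc : ContDiff ℝ ∞ scT := by unfold scT; fun_prop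
  have a := cd_ofReal (hcc.comp hτ)
  have b := cd_ofReal (hss.comp hτ)
  have c := cd_ofReal (hcs.comp hτ)
  have d := cd_ofReal (hsc.comp hτ)
  have e : ∀ j : Fin 5, ContDiff ℝ ∞ (fun p : ℝ × V5 => rot (sigmaT p.1) p.2 j) :=
    fun j => (contDiff_apply ℝ ℂ j).comp hy
  rw [contDiff_pi]
  intro i
  fin_cases i
  · exact (((a.mul (e 0)).sub (b.mul (e 1))).sub (c.mul (e 2))).add (d.mul (e 3))
  · exact (((b.neg.mul (e 0)).add (a.mul (e 1))).sub (d.mul (e 2))).add (c.mul (e 3))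
  · exact (((c.mul (e 0)).add (d.mul (e 1))).add (a.mul (e 2))).add (b.mul (e 3))
  · exact (((d.neg.mul (e 0)).sub (c.mul (e 1))).add (b.mul (e 2))).add (a.mul (e 3))
  · exact e 4

lemma contDiff_HFun : ContDiff ℝ ∞ HFun := by
  have hσ : ContDiff ℝ ∞ (fun p : ℝ × V5 => sigmaT p.1) := contDiff_sigmaT.comp contDiff_fst
  have hu : ContDiff ℝ ∞ (fun p : ℝ × V5 => uu p.2) := contDiff_uu.comp contDiff_snd
  have hm : ContDiff ℝ ∞ (fun p : ℝ × V5 => mG p.2) := contDiff_mG.comp contDiff_snd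
  have h1 : ContDiff ℝ ∞ (fun p : ℝ × V5 => dtau p.1) := contDiff_dtau.comp contDiff_fst
  have h2 : ContDiff ℝ ∞ (fun p : ℝ × V5 => dsig p.1) := contDiff_dsig.comp contDiff_fst
  have h3 : ContDiff ℝ ∞ (fun p : ℝ × V5 => ell (sigmaT p.1 ^ 2 * uu p.2)) := by
    rw [contDiff_iff_contDiffAt]
    intro p
    have hpos : -1 < sigmaT p.1 ^ 2 * uu p.2 := by
      have := uu_nonneg p.2
      have : 0 ≤ sigmaT p.1 ^ 2 * uu p.2 := by positivity
      linarith
    exact ContDiffAt.comp p (ell_contDiffAt hpos) ((hσ.pow 2).mul hu).contDiffAt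
  unfold HFun Lg
  exact (h1.mul hm).add ((contDiff_const.mul h2).mul (hu.mul h3))

lemma rot_smul (s : ℝ) (c : ℂ) (z : V5) (hc : normSq c = 1) : rot s (c • z) = c • rot s z := by
  have h0 : J0 (c • z) = J0 z := by rw [J0_smul, hc, one_mul]
  have h1 : J1 (c • z) = J1 z := by rw [J1_smul, hc, one_mul]
  have h2 : J2 (c • z) = J2 z := by rw [J2_smul, hc, one_mul]
  have hu : uu (c • z) = uu z := by unfold uu; rw [h0, h1, h2]
  have hf1 : f1 s (c • z) = f1 s z := by unfold f1 dd; rw [hu]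
  have hf2 : f2 s (c • z) = f2 s z := by unfold f2 dd; rw [hu]
  funext i
  fin_cases i
  · show (f1 s (c • z) : ℂ) * (c * z 0)
        + (f2 s (c • z) : ℂ) * ((J1 (c • z) : ℂ) * (c * z 2) - (J2 (c • z) : ℂ) * (c * z 1)) =
      c * ((f1 s z : ℂ) * z 0 + (f2 s z : ℂ) * ((J1 z : ℂ) * z 2 - (J2 z : ℂ) * z 1))
    rw [hf1, hf2, h1, h2]; ring
  · show (f1 s (c • z) : ℂ) * (c * z 1)
        + (f2 s (c • z) : ℂ) * ((J2 (c • z) : ℂ) * (c * z 0) - (J0 (c • z) : ℂ) * (c * z 2)) =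
      c * ((f1 s z : ℂ) * z 1 + (f2 s z : ℂ) * ((J2 z : ℂ) * z 0 - (J0 z : ℂ) * z 2))
    rw [hf1, hf2, h0, h2]; ring
  · show (f1 s (c • z) : ℂ) * (c * z 2)
        + (f2 s (c • z) : ℂ) * ((J0 (c • z) : ℂ) * (c * z 1) - (J1 (c • z) : ℂ) * (c * z 0)) =
      c * ((f1 s z : ℂ) * z 2 + (f2 s z : ℂ) * ((J0 z : ℂ) * z 1 - (J1 z : ℂ) * z 0))
    rw [hf1, hf2, h0, h1]; ring
  · rfl
  · rfl

lemma normSq_of_norm {c : ℂ} (hc : ‖c‖ = 1) : normSq c = 1 := by
  rw [Complex.normSq_eq_norm_sq, hc]; norm_num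

lemma hasFDerivAt_HFun (t : ℝ) (y : V5) :
    HasFDerivAt (fun x => HFun (t, x))
      (dtau t • mGD y + (2 * dsig t * (1 / (1 + sigmaT t ^ 2 * uu y))) • uuD y) y := by
  have h1 := (hasFDerivAt_mG y).const_mul (dtau t)
  have h2 := ((hasDerivAt_Lg (sq_nonneg (sigmaT t)) (uu_nonneg y)).comp_hasFDerivAt y
    (hasFDerivAt_uu y)).const_mul (2 * dsig t)
  have h := h1.add h2
  refine HasFDerivAt.congr_fderiv h ?_
  rw [smul_smul]

lemma herm_smul_im (r : ℝ) (u w : V5) : (herm (r • u) w).im = r * (herm u w).im := by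
  rw [herm_im, herm_im]
  simp only [Pi.smul_apply, Complex.smul_re, Complex.smul_im, smul_eq_mul]
  ring

lemma hamilton_eq (t : ℝ) (z w : V5) :
    2 * (herm (deriv (fun s : ℝ => PsiFun (s, z)) t) w).im =
      fderiv ℝ (fun x : V5 => HFun (t, x)) (PsiFun (t, z)) w := by
  rw [(hasFDerivAt_HFun t (PsiFun (t, z))).fderiv]
  rcases le_total t (1 / 2) with ht | ht
  · -- first phase: only the rotation moves
    have htau : tauT t = 0 := (tauT_near ht).self_of_nhds
    have e : (fun s => PsiFun (s, z)) =ᶠ[𝓝 t] fun s => rot (sigmaT s) z := by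
      filter_upwards [tauT_near ht] with s hs
      simp [PsiFun, hs, VT_zero]
    have hd : HasDerivAt (fun s => rot (sigmaT s) z)
        (dsig t • ((2 / dd (sigmaT t) z : ℝ) • crossV (J0 z) (J1 z) (J2 z) (rot (sigmaT t) z))) t :=
      (hasDerivAt_rot (sigmaT t) z).scomp t (hasDerivAt_sigmaT t)
    rw [e.deriv_eq, hd.deriv]
    have hy : PsiFun (t, z) = rot (sigmaT t) z := by simp [PsiFun, htau, VT_zero]
    rw [hy, herm_smul_im, herm_smul_im, crossV_hamilton, dtau_zero ht]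
    set y := rot (sigmaT t) z with hydef
    have h0 : J0 y = J0 z := J0_rot _ _
    have h1 : J1 y = J1 z := J1_rot _ _
    have h2 : J2 y = J2 z := J2_rot _ _
    have hu : uu y = uu z := uu_rot _ _
    simp only [uuD, zero_smul, zero_add, ContinuousLinearMap.smul_apply,
      ContinuousLinearMap.add_apply, smul_eq_mul, h0, h1, h2, hu]
    have hdd : dd (sigmaT t) z = 1 + sigmaT t ^ 2 * uu z := rfl
    rw [hdd]
    ring
  · -- second phase: only the linear flow moves
    have hsig : sigmaT t = 65 / 36 := (sigmaT_near ht).self_of_nhds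
    have e : (fun s => PsiFun (s, z)) =ᶠ[𝓝 t] fun s => VT (tauT s) (rot (65 / 36) z) := by
      filter_upwards [sigmaT_near ht] with s hs
      simp [PsiFun, hs]
    have hd : HasDerivAt (fun s => VT (tauT s) (rot (65 / 36) z))
        (dtau t • Gen (VT (tauT t) (rot (65 / 36) z))) t :=
      (hasDerivAt_VT (tauT t) (rot (65 / 36) z)).scomp t (hasDerivAt_tauT t)
    rw [e.deriv_eq, hd.deriv]
    have hy : PsiFun (t, z) = VT (tauT t) (rot (65 / 36) z) := by simp [PsiFun, hsig]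
    rw [hy, herm_smul_im, dsig_zero ht]
    have := Gen_hamilton (VT (tauT t) (rot (65 / 36) z)) w
    simp only [mul_zero, zero_mul, zero_smul, add_zero, ContinuousLinearMap.smul_apply,
      smul_eq_mul]
    rw [← this]
    ring

/-- The Hamiltonian cone lift. -/
noncomputable def theLift : HamiltonianConeLift where
  Ψ := PsiFun
  H := HFun
  smooth_Ψ := contDiff_PsiFun
  smooth_H := contDiff_HFun
  mapsTo_cone := fun t z hz => VT_mem_cone _ (rot_mem_cone _ hz)
  compatible := fun t z _ c hc => by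
    refine ⟨c, ?_⟩
    simp only [PsiFun, VT, rot_smul _ c z (normSq_of_norm hc), Vf_smul]
  start := fun z _ => by
    refine ⟨1, ?_⟩
    have hrot : rot 0 z = z := by
      have h1 : f1 0 z = 1 := by simp [f1, dd]
      have h2 : f2 0 z = 0 := by simp [f2]
      funext i
      fin_cases i
      · simp [h1, h2]
      · simp [h1, h2]
      · simp [h1, h2]
      · rfl
      · rfl
    simp [PsiFun, sigmaT_zero, tauT_zero, VT_zero, hrot]
  invariant := fun t z _ c hc => by
    have hc' := normSq_of_norm hc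
    have hu : uu (c • z) = uu z := by
      unfold uu; rw [J0_smul, J1_smul, J2_smul, hc']; simp
    have hm : mG (c • z) = mG z := by
      unfold mG; rw [K0_smul, J0_smul, K1_smul, J1_smul, hc']; simp
    simp only [HFun, hu, hm]
  hamilton := fun t _ z _ w _ => hamilton_eq t z w

end Crest.Agent.S0316Lib
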