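import Crest.Agent.S0316Lib.Fixed

set_option autoImplicit false

namespace Crest.Agent.S0316Lib

open Crest.GeometryTopology.Quadric Complex

/-! ### The rotation step preserves the cone -/

lemma rot_sum_re (s : ℝ) (z : V5) :
    (rot s z 0).re ^ 2 + (rot s z 1).re ^ 2 + (rot s z 2).re ^ 2
      = (z 0).re ^ 2 + (z 1).re ^ 2 + (z 2).re ^ 2 := by
  rw [rot_re_0, rot_re_1, rot_re_2]
  have hr := f_rel s z
  have hd := J_dot_re z
  set a0 := (z 0).re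
  set a1 := (z 1).re
  set a2 := (z 2).re
  set f := f1 s z
  set g := f2 s z
  set b0 := J0 z
  set b1 := J1 z
  set b2 := J2 z
  have : uu z = b0 ^ 2 + b1 ^ 2 + b2 ^ 2 := rfl
  rw [this] at hr
  linear_combination (a0 ^ 2 + a1 ^ 2 + a2 ^ 2) * hr
    - g ^ 2 * (b0 * a0 + b1 * a1 + b2 * a2) * hd

lemma rot_sum_im (s : ℝ) (z : V5) :
    (rot s z 0).im ^ 2 + (rot s z 1).im ^ 2 + (rot s z 2).im ^ 2
      = (z 0).im ^ 2 + (z 1).im ^ 2 + (z 2).im ^ 2 := by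
  rw [rot_im_0, rot_im_1, rot_im_2]
  have hr := f_rel s z
  have hd := J_dot_im z
  set a0 := (z 0).im
  set a1 := (z 1).im
  set a2 := (z 2).im
  set f := f1 s z
  set g := f2 s z
  set b0 := J0 z
  set b1 := J1 z
  set b2 := J2 z
  have : uu z = b0 ^ 2 + b1 ^ 2 + b2 ^ 2 := rfl
  rw [this] at hr
  linear_combination (a0 ^ 2 + a1 ^ 2 + a2 ^ 2) * hr
    - g ^ 2 * (b0 * a0 + b1 * a1 + b2 * a2) * hd

lemma rot_sum_mix (s : ℝ) (z : V5) :
    (rot s z 0).re * (rot s z 0).im + (rot s z 1).re * (rot s z 1).im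
        + (rot s z 2).re * (rot s z 2).im
      = (z 0).re * (z 0).im + (z 1).re * (z 1).im + (z 2).re * (z 2).im := by
  rw [rot_re_0, rot_re_1, rot_re_2, rot_im_0, rot_im_1, rot_im_2]
  have hr := f_rel s z
  have hd := J_dot_re z
  set a0 := (z 0).re
  set a1 := (z 1).re
  set a2 := (z 2).re
  set c0 := (z 0).im
  set c1 := (z 1).im
  set c2 := (z 2).im
  set f := f1 s z
  set g := f2 s z
  set b0 := J0 z
  set b1 := J1 z
  set b2 := J2 z
  have : uu z = b0 ^ 2 + b1 ^ 2 + b2 ^ 2 := rfl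
  rw [this] at hr
  linear_combination (a0 * c0 + a1 * c1 + a2 * c2) * hr
    - g ^ 2 * (b0 * c0 + b1 * c1 + b2 * c2) * hd

lemma rot_mem_cone (s : ℝ) {z : V5} (hz : z ∈ unitCone) : rot s z ∈ unitCone := by
  obtain ⟨h1, h2, h3⟩ := cone_real hz
  have e1 := rot_sum_re s z
  have e2 := rot_sum_im s z
  have e3 := rot_sum_mix s z
  apply mem_cone_of_real
  · simp only [rot_3, rot_4]; linarith
  · simp only [rot_3, rot_4]; linarith
  · simp only [rot_3, rot_4]; linarith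

lemma Vone_mem_cone {y : V5} (hy : y ∈ unitCone) : Vone y ∈ unitCone := by
  obtain ⟨h1, h2, h3⟩ := cone_real hy
  apply mem_cone_of_real
  · simp only [Vone_re_0, Vone_re_1, Vone_re_2, Vone_re_3, Vone_im_0, Vone_im_1, Vone_im_2,
      Vone_im_3, Vone_4]
    linear_combination h1
  · simp only [Vone_re_0, Vone_re_1, Vone_re_2, Vone_re_3, Vone_im_0, Vone_im_1, Vone_im_2,
      Vone_im_3, Vone_4]
    linear_combination h2
  · simp only [Vone_re_0, Vone_re_1, Vone_re_2, Vone_re_3, Vone_im_0, Vone_im_1, Vone_im_2,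
      Vone_im_3, Vone_4]
    linear_combination h3

lemma normSq_of_smul_mem {z : V5} {c : ℂ} (hz : z ∈ unitCone) (hcz : c • z ∈ unitCone) :
    normSq c = 1 := by
  obtain ⟨h1, -, -⟩ := cone_real hz
  obtain ⟨h2, -, -⟩ := cone_real hcz
  simp only [Pi.smul_apply, smul_eq_mul, mul_re, mul_im] at h2
  rw [normSq_apply]
  have key : (c.re * c.re + c.im * c.im) * ((z 0).re ^ 2 + (z 1).re ^ 2 + (z 2).re ^ 2
      + (z 3).re ^ 2 + (z 4).re ^ 2
      + ((z 0).im ^ 2 + (z 1).im ^ 2 + (z 2).im ^ 2 + (z 3).im ^ 2 + (z 4).im ^ 2)) = 1 := by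
    linear_combination h2
  rw [h1] at key
  linarith

/-! ### Recovering the line from the Plücker coordinates -/

lemma star_sub (a b : ℂ) : (starRingEnd ℂ a) * b - (starRingEnd ℂ b) * a
    = 2 * I * ((a.re * b.im - a.im * b.re : ℝ) : ℂ) := by
  apply Complex.ext <;> simp <;> ring

lemma line_recovery {z z' : V5} (hz : z ∈ unitCone) (hz' : z' ∈ unitCone)
    (h4 : z 4 = 0) (h4' : z' 4 = 0)
    (e0 : J0 z' = J0 z) (e1 : J1 z' = J1 z) (e2 : J2 z' = J2 z)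
    (e3 : K0 z' = K0 z) (e4 : K1 z' = K1 z) (e5 : K2 z' = K2 z) :
    ∃ c : ℂ, c ≠ 0 ∧ z' = c • z := by
  have hN := JK_norm hz h4
  obtain ⟨hz1, hz2⟩ := hz
  obtain ⟨hz1', hz2'⟩ := hz'
  simp only [herm, Fin.sum_univ_five, h4, h4', map_zero, mul_zero, add_zero] at hz1 hz1'
  simp only [Fin.sum_univ_five, h4, h4', ne_eq, OfNat.ofNat_ne_zero, not_false_eq_true,
    zero_pow, add_zero] at hz2 hz2'
  set a0 := z 0 with ha0
  set a1 := z 1 with ha1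
  set a2 := z 2 with ha2
  set a3 := z 3 with ha3
  set b0 := z' 0 with hb0
  set b1 := z' 1 with hb1
  set b2 := z' 2 with hb2
  set b3 := z' 3 with hb3
  set A0 := (starRingEnd ℂ) a0 with hA0
  set A1 := (starRingEnd ℂ) a1 with hA1
  set A2 := (starRingEnd ℂ) a2 with hA2
  set A3 := (starRingEnd ℂ) a3 with hA3
  set B0 := (starRingEnd ℂ) b0 with hB0
  set B1 := (starRingEnd ℂ) b1 with hB1
  set B2 := (starRingEnd ℂ) b2 with hB2
  set B3 := (starRingEnd ℂ) b3 with hB3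
  have P12 : A1 * a2 - A2 * a1 = B1 * b2 - B2 * b1 := by
    rw [star_sub, star_sub]
    have : b1.re * b2.im - b1.im * b2.re = a1.re * a2.im - a1.im * a2.re := e0
    rw [this]
  have P20 : A2 * a0 - A0 * a2 = B2 * b0 - B0 * b2 := by
    rw [star_sub, star_sub]
    have : b2.re * b0.im - b2.im * b0.re = a2.re * a0.im - a2.im * a0.re := e1
    rw [this]
  have P01 : A0 * a1 - A1 * a0 = B0 * b1 - B1 * b0 := by
    rw [star_sub, star_sub]
    have : b0.re * b1.im - b0.im * b1.re = a0.re * a1.im - a0.im * a1.re := e2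
    rw [this]
  have P30 : A3 * a0 - A0 * a3 = B3 * b0 - B0 * b3 := by
    rw [star_sub, star_sub]
    have : b3.re * b0.im - b3.im * b0.re = a3.re * a0.im - a3.im * a0.re := e3
    rw [this]
  have P31 : A3 * a1 - A1 * a3 = B3 * b1 - B1 * b3 := by
    rw [star_sub, star_sub]
    have : b3.re * b1.im - b3.im * b1.re = a3.re * a1.im - a3.im * a1.re := e4
    rw [this]
  have P32 : A3 * a2 - A2 * a3 = B3 * b2 - B2 * b3 := by
    rw [star_sub, star_sub]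
    have : b3.re * b2.im - b3.im * b2.re = a3.re * a2.im - a3.im * a2.re := e5
    rw [this]
  obtain ⟨h, hh⟩ : ∃ h, h = A0 * b0 + A1 * b1 + A2 * b2 + A3 * b3 := ⟨_, rfl⟩
  obtain ⟨ι, hι⟩ : ∃ ι, ι = a0 * b0 + a1 * b1 + a2 * b2 + a3 * b3 := ⟨_, rfl⟩
  have hb0' : b0 = h * a0 - ι * A0 := by
    rw [hh, hι]
    linear_combination b1 * P01 - b2 * P20 - b3 * P30 - b0 * hz1' + B0 * hz2'
  have hb1' : b1 = h * a1 - ι * A1 := by
    rw [hh, hι]
    linear_combination -b0 * P01 + b2 * P12 - b3 * P31 - b1 * hz1' + B1 * hz2'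
  have hb2' : b2 = h * a2 - ι * A2 := by
    rw [hh, hι]
    linear_combination b0 * P20 - b1 * P12 - b3 * P32 - b2 * hz1' + B2 * hz2'
  have hb3' : b3 = h * a3 - ι * A3 := by
    rw [hh, hι]
    linear_combination b0 * P30 + b1 * P31 + b2 * P32 - b3 * hz1' + B3 * hz2'
  have hAz2 : A0 ^ 2 + A1 ^ 2 + A2 ^ 2 + A3 ^ 2 = 0 := by
    have := congrArg (starRingEnd ℂ) hz2
    simpa only [map_add, map_pow, map_zero] using this
  have hprod : h * ι = 0 := by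
    have h0 : (h * a0 - ι * A0) ^ 2 + (h * a1 - ι * A1) ^ 2 + (h * a2 - ι * A2) ^ 2
        + (h * a3 - ι * A3) ^ 2 = 0 := by
      rw [← hb0', ← hb1', ← hb2', ← hb3']; exact hz2'
    linear_combination (-1 / 2) * h0 + (h ^ 2 / 2) * hz2 + (ι ^ 2 / 2) * hAz2 - h * ι * hz1
  rcases mul_eq_zero.1 hprod with h0 | h0
  · -- the orientation reversing case is excluded
    exfalso
    rw [h0] at hb0' hb1' hb2' hb3'
    have hre : ∀ u v w : ℂ, u = 0 * v - ι * (starRingEnd ℂ) v →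
        u.re = -(ι.re * v.re + ι.im * v.im) ∧ u.im = ι.re * v.im - ι.im * v.re := by
      intro u v w hu
      rw [hu]
      constructor
      · simp
      · simp; ring
    have h00 := hre b0 a0 0 hb0'
    have h01 := hre b1 a1 0 hb1'
    have h02 := hre b2 a2 0 hb2'
    have h03 := hre b3 a3 0 hb3'
    have e0' : b1.re * b2.im - b1.im * b2.re = a1.re * a2.im - a1.im * a2.re := e0
    have e1' : b2.re * b0.im - b2.im * b0.re = a2.re * a0.im - a2.im * a0.re := e1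
    have e2' : b0.re * b1.im - b0.im * b1.re = a0.re * a1.im - a0.im * a1.re := e2
    have e3' : b3.re * b0.im - b3.im * b0.re = a3.re * a0.im - a3.im * a0.re := e3
    have e4' : b3.re * b1.im - b3.im * b1.re = a3.re * a1.im - a3.im * a1.re := e4
    have e5' : b3.re * b2.im - b3.im * b2.re = a3.re * a2.im - a3.im * a2.re := e5
    rw [h01.1, h01.2, h02.1, h02.2] at e0'
    rw [h02.1, h02.2, h00.1, h00.2] at e1'
    rw [h00.1, h00.2, h01.1, h01.2] at e2'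
    rw [h03.1, h03.2, h00.1, h00.2] at e3'
    rw [h03.1, h03.2, h01.1, h01.2] at e4'
    rw [h03.1, h03.2, h02.1, h02.2] at e5'
    have hpos : 0 < 1 + (ι.re ^ 2 + ι.im ^ 2) := by positivity
    have kill : ∀ {x y : ℝ}, -(ι.re ^ 2 + ι.im ^ 2) * x = x → x = 0 := by
      intro x y hx
      have : (1 + (ι.re ^ 2 + ι.im ^ 2)) * x = 0 := by linarith
      exact (mul_eq_zero.1 this).resolve_left hpos.ne'
    have j0 : a1.re * a2.im - a1.im * a2.re = 0 := kill (y := 0) (by linear_combination e0')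
    have j1 : a2.re * a0.im - a2.im * a0.re = 0 := kill (y := 0) (by linear_combination e1')
    have j2 : a0.re * a1.im - a0.im * a1.re = 0 := kill (y := 0) (by linear_combination e2')
    have k0 : a3.re * a0.im - a3.im * a0.re = 0 := kill (y := 0) (by linear_combination e3')
    have k1 : a3.re * a1.im - a3.im * a1.re = 0 := kill (y := 0) (by linear_combination e4')
    have k2 : a3.re * a2.im - a3.im * a2.re = 0 := kill (y := 0) (by linear_combination e5')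
    have j0' : J0 z = 0 := j0
    have j1' : J1 z = 0 := j1
    have j2' : J2 z = 0 := j2
    have k0' : K0 z = 0 := k0
    have k1' : K1 z = 0 := k1
    have k2' : K2 z = 0 := k2
    rw [j0', j1', j2', k0', k1', k2'] at hN
    norm_num at hN
  · refine ⟨h, ?_, ?_⟩
    · rintro rfl
      rw [h0] at hb0' hb1' hb2' hb3'
      simp only [zero_mul, sub_self] at hb0' hb1' hb2' hb3'
      simp [hb0', hb1', hb2', hb3', hB0, hB1, hB2, hB3] at hz1'
    · rw [h0] at hb0' hb1' hb2' hb3'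
      funext i
      fin_cases i
      · simpa using hb0'
      · simpa using hb1'
      · simpa using hb2'
      · simpa using hb3'
      · simp [h4, h4']

/-! ### Existence of cone points with given `(J, K)` -/

lemma exists_cone_point (j0 j1 j2 k0 k1 k2 : ℝ) (hJK : j0 * k0 + j1 * k1 + j2 * k2 = 0)
    (hN : j0 ^ 2 + j1 ^ 2 + j2 ^ 2 + k0 ^ 2 + k1 ^ 2 + k2 ^ 2 = 1 / 4)
    (hQ : 0 < k0 ^ 2 + k1 ^ 2 + k2 ^ 2) :
    ∃ z : V5, z ∈ unitCone ∧ z 4 = 0 ∧ J0 z = j0 ∧ J1 z = j1 ∧ J2 z = j2 ∧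
      K0 z = k0 ∧ K1 z = k1 ∧ K2 z = k2 := by
  obtain ⟨t, hT⟩ : ∃ t : ℝ, 2 * (k0 ^ 2 + k1 ^ 2 + k2 ^ 2) * t ^ 2 = 1 := by
    refine ⟨1 / Real.sqrt (2 * (k0 ^ 2 + k1 ^ 2 + k2 ^ 2)), ?_⟩
    have hpos : 0 < 2 * (k0 ^ 2 + k1 ^ 2 + k2 ^ 2) := by positivity
    rw [div_pow, Real.sq_sqrt hpos.le]
    field_simp
  set Q := k0 ^ 2 + k1 ^ 2 + k2 ^ 2 with hQdef
  let z : V5 := ![⟨2 * t * (k1 * j2 - k2 * j1), t * k0⟩, ⟨2 * t * (k2 * j0 - k0 * j2), t * k1⟩,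
    ⟨2 * t * (k0 * j1 - k1 * j0), t * k2⟩, ⟨2 * Q * t, 0⟩, 0]
  have z0 : z 0 = ⟨2 * t * (k1 * j2 - k2 * j1), t * k0⟩ := rfl
  have z1 : z 1 = ⟨2 * t * (k2 * j0 - k0 * j2), t * k1⟩ := rfl
  have z2 : z 2 = ⟨2 * t * (k0 * j1 - k1 * j0), t * k2⟩ := rfl
  have z3 : z 3 = ⟨2 * Q * t, 0⟩ := rfl
  have z4 : z 4 = 0 := rfl
  refine ⟨z, ?_, z4, ?_, ?_, ?_, ?_, ?_, ?_⟩
  · apply mem_cone_of_real
    · simp only [z0, z1, z2, z3, z4, zero_re, zero_im]
      rw [hQdef] at hT ⊢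
      linear_combination (2 * (j0 ^ 2 + j1 ^ 2 + j2 ^ 2) + 2 * (k0 ^ 2 + k1 ^ 2 + k2 ^ 2)
        + 1 / 2) * hT + 2 * hN - 4 * t ^ 2 * (j0 * k0 + j1 * k1 + j2 * k2) * hJK
    · simp only [z0, z1, z2, z3, z4, zero_re, zero_im]
      rw [hQdef] at hT ⊢
      linear_combination (2 * (j0 ^ 2 + j1 ^ 2 + j2 ^ 2) + 2 * (k0 ^ 2 + k1 ^ 2 + k2 ^ 2)
        - 1 / 2) * hT + 2 * hN - 4 * t ^ 2 * (j0 * k0 + j1 * k1 + j2 * k2) * hJK
    · simp only [z0, z1, z2, z3, z4, zero_re, zero_im]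
      ring
  · simp only [J0, pl, z1, z2]
    rw [hQdef] at hT
    linear_combination j0 * hT - 2 * t ^ 2 * k0 * hJK
  · simp only [J1, pl, z2, z0]
    rw [hQdef] at hT
    linear_combination j1 * hT - 2 * t ^ 2 * k1 * hJK
  · simp only [J2, pl, z0, z1]
    rw [hQdef] at hT
    linear_combination j2 * hT - 2 * t ^ 2 * k2 * hJK
  · simp only [K0, pl, z3, z0]
    rw [hQdef] at hT
    linear_combination k0 * hT
  · simp only [K1, pl, z3, z1]
    rw [hQdef] at hT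
    linear_combination k1 * hT
  · simp only [K2, pl, z3, z2]
    rw [hQdef] at hT
    linear_combination k2 * hT

/-! ### No fixed points off the hyperplane section -/

lemma offQ_real (b0 b1 b2 e0 e1 e2 e3 p0 p1 p2 : ℝ)
    (H0 : (-144 * p0 - 25 * p1 + 60 * p2 + 60 * e3) / 169 = e0)
    (H1 : (-25 * p0 - 144 * p1 - 60 * p2 - 60 * e3) / 169 = e1)
    (H2 : (-60 * p0 + 60 * p1 - 144 * p2 + 25 * e3) / 169 = e2)
    (H3 : (-60 * p0 + 60 * p1 + 25 * p2 - 144 * e3) / 169 = e3)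
    (C0 : p0 - e0 = (65 / 36) * (b1 * (e2 + p2) - b2 * (e1 + p1)))
    (C1 : p1 - e1 = (65 / 36) * (b2 * (e0 + p0) - b0 * (e2 + p2)))
    (C2 : p2 - e2 = (65 / 36) * (b0 * (e1 + p1) - b1 * (e0 + p0)))
    (hb : b0 ^ 2 + b1 ^ 2 + b2 ^ 2 ≤ 1 / 4) :
    e0 = 0 ∧ e1 = 0 ∧ e2 = 0 ∧ e3 = 0 := by
  obtain ⟨g0, hg0⟩ : ∃ g0, g0 = e0 + p0 := ⟨_, rfl⟩
  obtain ⟨g1, hg1⟩ : ∃ g1, g1 = e1 + p1 := ⟨_, rfl⟩
  obtain ⟨g2, hg2⟩ : ∃ g2, g2 = e2 + p2 := ⟨_, rfl⟩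
  obtain ⟨f0, hf0⟩ : ∃ f0, f0 = p0 - e0 := ⟨_, rfl⟩
  obtain ⟨f1', hf1⟩ : ∃ f1', f1' = p1 - e1 := ⟨_, rfl⟩
  obtain ⟨f2', hf2⟩ : ∃ f2', f2' = p2 - e2 := ⟨_, rfl⟩
  have hF : f0 ^ 2 + f1' ^ 2 + f2' ^ 2
      ≤ (65 / 36) ^ 2 * (1 / 4) * (g0 ^ 2 + g1 ^ 2 + g2 ^ 2) := by
    have e1' : f0 = (65 / 36) * (b1 * g2 - b2 * g1) := by rw [hf0, C0, hg1, hg2]
    have e2' : f1' = (65 / 36) * (b2 * g0 - b0 * g2) := by rw [hf1, C1, hg0, hg2]
    have e3' : f2' = (65 / 36) * (b0 * g1 - b1 * g0) := by rw [hf2, C2, hg0, hg1]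
    rw [e1', e2', e3']
    have key : (b1 * g2 - b2 * g1) ^ 2 + (b2 * g0 - b0 * g2) ^ 2 + (b0 * g1 - b1 * g0) ^ 2
        = (b0 ^ 2 + b1 ^ 2 + b2 ^ 2) * (g0 ^ 2 + g1 ^ 2 + g2 ^ 2)
          - (b0 * g0 + b1 * g1 + b2 * g2) ^ 2 := by ring
    have hg : 0 ≤ g0 ^ 2 + g1 ^ 2 + g2 ^ 2 := by positivity
    have h2 : (b0 ^ 2 + b1 ^ 2 + b2 ^ 2) * (g0 ^ 2 + g1 ^ 2 + g2 ^ 2)
        ≤ (1 / 4) * (g0 ^ 2 + g1 ^ 2 + g2 ^ 2) := mul_le_mul_of_nonneg_right hb hg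
    have h3 := sq_nonneg (b0 * g0 + b1 * g1 + b2 * g2)
    have : ((65 / 36 : ℝ) * (b1 * g2 - b2 * g1)) ^ 2 + ((65 / 36) * (b2 * g0 - b0 * g2)) ^ 2
        + ((65 / 36) * (b0 * g1 - b1 * g0)) ^ 2
        = (65 / 36) ^ 2 * ((b1 * g2 - b2 * g1) ^ 2 + (b2 * g0 - b0 * g2) ^ 2
          + (b0 * g1 - b1 * g0) ^ 2) := by ring
    rw [this, key]
    have h4 : (b0 ^ 2 + b1 ^ 2 + b2 ^ 2) * (g0 ^ 2 + g1 ^ 2 + g2 ^ 2)
        - (b0 * g0 + b1 * g1 + b2 * g2) ^ 2 ≤ (1 / 4) * (g0 ^ 2 + g1 ^ 2 + g2 ^ 2) := by linarith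
    have h5 : (0 : ℝ) ≤ (65 / 36) ^ 2 := by positivity
    calc _ ≤ (65 / 36 : ℝ) ^ 2 * ((1 / 4) * (g0 ^ 2 + g1 ^ 2 + g2 ^ 2)) :=
          mul_le_mul_of_nonneg_left h4 h5
      _ = _ := by ring
  -- the key identity
  have hiden : 25 * (f0 ^ 2 + f1' ^ 2 + f2' ^ 2) - 144 * (g0 ^ 2 + g1 ^ 2 + g2 ^ 2 + 4 * e3 ^ 2)
      = 50 * ((p0 + p1) ^ 2 + (e3 - p2) ^ 2) := by
    rw [hf0, hf1, hf2, hg0, hg1, hg2, ← H0, ← H1, ← H2]
    have hp3 : e3 = (-60 * p0 + 60 * p1 + 25 * p2) / 313 := by linarith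
    rw [hp3]
    ring
  have hG : g0 ^ 2 + g1 ^ 2 + g2 ^ 2 + 4 * e3 ^ 2 ≤ 0 := by
    have h6 : 0 ≤ (p0 + p1) ^ 2 + (e3 - p2) ^ 2 := by positivity
    have h7 : 0 ≤ g0 ^ 2 + g1 ^ 2 + g2 ^ 2 := by positivity
    have h8 : 0 ≤ e3 ^ 2 := by positivity
    nlinarith
  have hg0' : g0 = 0 := by nlinarith [sq_nonneg g0, sq_nonneg g1, sq_nonneg g2, sq_nonneg e3]
  have hg1' : g1 = 0 := by nlinarith [sq_nonneg g0, sq_nonneg g1, sq_nonneg g2, sq_nonneg e3]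
  have hg2' : g2 = 0 := by nlinarith [sq_nonneg g0, sq_nonneg g1, sq_nonneg g2, sq_nonneg e3]
  have he3 : e3 = 0 := by nlinarith [sq_nonneg g0, sq_nonneg g1, sq_nonneg g2, sq_nonneg e3]
  subst hg0' hg1' hg2'
  have hF' : f0 ^ 2 + f1' ^ 2 + f2' ^ 2 ≤ 0 := by simpa using hF
  have hf0' : f0 = 0 := by nlinarith [sq_nonneg f0, sq_nonneg f1', sq_nonneg f2']
  have hf1' : f1' = 0 := by nlinarith [sq_nonneg f0, sq_nonneg f1', sq_nonneg f2']
  have hf2' : f2' = 0 := by nlinarith [sq_nonneg f0, sq_nonneg f1', sq_nonneg f2']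
  refine ⟨by linarith, by linarith, by linarith, he3⟩

/-- The time one map. -/
noncomputable def FF (z : V5) : V5 := Vone (rot (65 / 36) z)

lemma no_fixed_off {z : V5} {c : ℂ} (hz : z ∈ unitCone) (h4 : z 4 ≠ 0) (hF : FF z = c • z) :
    False := by
  have hc : c = 1 := by
    have := congrFun hF 4
    simp only [FF, Vone_4, rot_4, Pi.smul_apply, smul_eq_mul] at this
    have h5 : (c - 1) * z 4 = 0 := by rw [sub_mul, ← this]; ring
    have := (mul_eq_zero.1 h5).resolve_right h4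
    linear_combination this
  subst hc
  rw [one_smul] at hF
  have hu := uu_le hz
  have hE : ∀ i, Vone (rot (65 / 36) z) i = z i := fun i => congrFun hF i
  have hre0 := congrArg Complex.re (hE 0)
  have hre1 := congrArg Complex.re (hE 1)
  have hre2 := congrArg Complex.re (hE 2)
  have hre3 := congrArg Complex.re (hE 3)
  have him0 := congrArg Complex.im (hE 0)
  have him1 := congrArg Complex.im (hE 1)
  have him2 := congrArg Complex.im (hE 2)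
  have him3 := congrArg Complex.im (hE 3)
  rw [Vone_re_0, rot_3] at hre0
  rw [Vone_re_1, rot_3] at hre1
  rw [Vone_re_2, rot_3] at hre2
  rw [Vone_re_3, rot_3] at hre3
  rw [Vone_im_0, rot_3] at him0
  rw [Vone_im_1, rot_3] at him1
  rw [Vone_im_2, rot_3] at him2
  rw [Vone_im_3, rot_3] at him3
  obtain ⟨C0, C1, C2⟩ := cayley_rel (65 / 36) (uu z) (f1 (65 / 36) z) (f2 (65 / 36) z)
    (J0 z) (J1 z) (J2 z) (z 0).re (z 1).re (z 2).re (rot (65 / 36) z 0).re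
    (rot (65 / 36) z 1).re (rot (65 / 36) z 2).re rfl (dd_ne _ _) rfl rfl (J_dot_re z)
    (rot_re_0 _ _) (rot_re_1 _ _) (rot_re_2 _ _)
  obtain ⟨D0, D1, D2⟩ := cayley_rel (65 / 36) (uu z) (f1 (65 / 36) z) (f2 (65 / 36) z)
    (J0 z) (J1 z) (J2 z) (z 0).im (z 1).im (z 2).im (rot (65 / 36) z 0).im
    (rot (65 / 36) z 1).im (rot (65 / 36) z 2).im rfl (dd_ne _ _) rfl rfl (J_dot_im z)
    (rot_im_0 _ _) (rot_im_1 _ _) (rot_im_2 _ _)
  obtain ⟨r0, r1, r2, r3⟩ := offQ_real (J0 z) (J1 z) (J2 z) (z 0).re (z 1).re (z 2).re (z 3).re _ _ _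
    hre0 hre1 hre2 hre3 C0 C1 C2 hu
  obtain ⟨i0, i1, i2, i3⟩ := offQ_real (J0 z) (J1 z) (J2 z) (z 0).im (z 1).im (z 2).im (z 3).im _ _ _
    him0 him1 him2 him3 D0 D1 D2 hu
  obtain ⟨-, h3⟩ := hz
  have hz0 : z 0 = 0 := Complex.ext r0 i0
  have hz1 : z 1 = 0 := Complex.ext r1 i1
  have hz2 : z 2 = 0 := Complex.ext r2 i2
  have hz3 : z 3 = 0 := Complex.ext r3 i3
  simp only [Fin.sum_univ_five, hz0, hz1, hz2, hz3] at h3
  apply h4
  simpa using h3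

/-! ### Points of the special form are fixed -/

lemma FF_mem_cone {z : V5} (hz : z ∈ unitCone) : FF z ∈ unitCone :=
  Vone_mem_cone (rot_mem_cone _ hz)

lemma fixed_of_form {z : V5} {j k n : ℝ} (hz : z ∈ unitCone) (h4 : z 4 = 0)
    (hJ0 : J0 z = j) (hJ1 : J1 z = j) (hJ2 : J2 z = 0)
    (hK0 : K0 z = k) (hK1 : K1 z = -k) (hK2 : K2 z = n)
    (h5 : n = (5 / 12) * (k - j)) (h6 : n = (65 / 18) * (j * k)) :
    ∃ c : ℂ, c ≠ 0 ∧ FF z = c • z := by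
  set s : ℝ := 65 / 36 with hs
  set y := rot s z with hy
  have hu : uu z = 2 * j ^ 2 := by unfold uu; rw [hJ0, hJ1, hJ2]; ring
  have hd : dd s z = 1 + s ^ 2 * (2 * j ^ 2) := by unfold dd; rw [hu]
  have hdne := dd_ne s z
  have hf1 : f1 s z * dd s z = 1 - s ^ 2 * (2 * j ^ 2) := by
    unfold f1; rw [hu]; field_simp
  have hf2 : f2 s z * dd s z = 2 * s := by unfold f2; field_simp
  rw [hd] at hf1 hf2 hdne
  have hn : n = 2 * s * (j * k) := by rw [hs, h6]; ring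
  have hy0 : K0 y = k := by
    rw [hy, K0_rot, hJ1, hJ2, hK0, hK1, hK2]
    apply mul_right_cancel₀ hdne
    linear_combination k * hf1 + (j * n) * hf2 + 2 * s * j * hn
  have hy1 : K1 y = -k := by
    rw [hy, K1_rot, hJ2, hJ0, hK0, hK1, hK2]
    apply mul_right_cancel₀ hdne
    linear_combination (-k) * hf1 + (-j * n) * hf2 - 2 * s * j * hn
  have hy2 : K2 y = -n := by
    rw [hy, K2_rot, hJ0, hJ1, hK0, hK1, hK2]
    apply mul_right_cancel₀ hdne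
    linear_combination n * hf1 + (-2 * j * k) * hf2 + 2 * hn
  have hyJ0 : J0 y = j := by rw [hy, J0_rot, hJ0]
  have hyJ1 : J1 y = j := by rw [hy, J1_rot, hJ1]
  have hyJ2 : J2 y = 0 := by rw [hy, J2_rot, hJ2]
  have a0 := X0_Vone y
  have a1 := X1_Vone y
  have a2 := X2_Vone y
  have b0 := Y0_Vone y
  have b1 := Y1_Vone y
  have b2 := Y2_Vone y
  simp only [X0, X1, X2, Y0, Y1, Y2, hyJ0, hyJ1, hyJ2, hy0, hy1, hy2] at a0 a1 a2 b0 b1 b2
  have hcone : Vone y ∈ unitCone := Vone_mem_cone (rot_mem_cone _ hz)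
  obtain ⟨c, hc0, hc⟩ := line_recovery hz hcone h4 (by simp [hy, h4])
    (by rw [hJ0]; linarith) (by rw [hJ1]; linarith) (by rw [hJ2]; linarith)
    (by rw [hK0]; linarith) (by rw [hK1]; linarith) (by rw [hK2]; linarith)
  exact ⟨c, hc0, hc⟩

end Crest.Agent.S0316Lib
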